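import Vale.Agent.P032.Net.H672.DNet

/-!
# P032: networks with J-partners, abstract form; (2) and (3) of the text of 838

`E z v`: `v` is a clean end of an exact two-coloured arc of the circle about `z`.
`J z y`: `y` is a two-pair point with `T y = T z` at distance 1 from the two-pair point `z`.
`Pr z X`: `z` is a two-pair point and `X` is one of its two pairs.
`o z v = 1` iff the arc of the circle about `z` at its end `v` is `z + (v - z) e^{-it}`,
`0 < t < l`; `inn z v` is the colour of the pair of that arc which is inside the disc about `z`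
near `v`.
-/

open Complex

set_option linter.dupNamespace false

namespace Vale.Agent.P032.H946

open Net.H672 (dt dt_comm dt_neg_left dt_neg_right dt_self)

/-- a centre with ends of complementary types -/
def Comp (T : ℂ → Set (Fin 6)) (E : ℂ → ℂ → Prop) (z : ℂ) : Prop :=
  ∃ v q, E z v ∧ E z q ∧ T q = (T v)ᶜ

/-- a centre with two J-partners -/
def Two (J : ℂ → ℂ → Prop) (z : ℂ) : Prop := ∃ y y', y ≠ y' ∧ J z y ∧ J z y'

/-- facts at the two-pair centres, with J-partners -/
structure JNet (T : ℂ → Set (Fin 6)) (E J : ℂ → ℂ → Prop) (Pr : ℂ → Set (Fin 6) → Prop)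
    (o : ℂ → ℂ → ℝ) (inn : ℂ → ℂ → Fin 6) : Prop where
  dist_E : ∀ {z v}, E z v → dist v z = 1
  card_z : ∀ {z v}, E z v → (T z).ncard = 4
  card_v : ∀ {z v}, E z v → (T v).ncard = 3
  card_i : ∀ {z v}, E z v → (T v ∩ T z).ncard = 2
  rh : ∀ {z v q}, E z v → E z q → T q = (T v)ᶜ → E (v + q - z) v ∧ E (v + q - z) q
  anti : ∀ {z v q}, E z v → E z q → T q = (T v)ᶜ → v + q ≠ 2 * z
  cov : ∀ {z v q}, E z v → E z q → T q = (T v)ᶜ → ∀ i, i ∈ T z ∨ i ∈ T (v + q - z)
  ori : ∀ {z v}, E z v → o z v = 1 ∨ o z v = -1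
  inn_mem : ∀ {z v}, E z v → inn z v ∈ T v ∩ T z
  /-- the arc of `z` at `v` is inside the disc about `w = v + q - z` iff the inner colour of the
  arc of `w` at `v` is the colour common to `z` and `w` -/
  LP1 : ∀ {z v q}, E z v → E z q → T q = (T v)ᶜ →
    (0 < o z v * dt (z - v) (q - z) ↔ inn (v + q - z) v ∈ T z)
  /-- the third edge at a vertex -/
  LP3 : ∀ {z v q c p}, E z v → E z q → T q = (T v)ᶜ → E c v → E c p → T p = (T v)ᶜ →
    c ≠ z → c ≠ v + q - z → ∃ a b : ℝ, 0 ≤ a ∧ 0 ≤ b ∧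
      ((o c v : ℝ) : ℂ) * (c - v) + (a : ℂ) * (((o z v : ℝ) : ℂ) * (z - v))
        + (b : ℂ) * (((o (v + q - z) v : ℝ) : ℂ) * (q - z)) = 0
  /-- (UNIQ) different centres with an end `v` miss different colours of `T v` -/
  uniq : ∀ {z z' v i}, E z v → E z' v → i ∈ T v → i ∉ T z → i ∉ T z' → z = z'
  /-- the pairs -/
  pr_E : ∀ {z v}, E z v → Pr z (T v ∩ T z)
  /-- (UA) -/
  ua : ∀ {z w m X Y}, Pr z X → Pr w Y → (∀ i, i ∈ T z ∨ i ∈ T w) → (X ∩ Y).ncard = 1 →
    ((T z \ X) ∩ (T w \ Y)).ncard = 1 → z ≠ w → z + w ≠ 2 * m → dist m z = 1 → dist m w = 1 →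
    (T m).ncard ≤ 3 → (T m = X ∪ Y ∨ T m = (X ∪ Y)ᶜ) ∧ E z m ∧ E w m
  J_dist : ∀ {z y}, J z y → dist y z = 1
  J_T : ∀ {z y}, J z y → T y = T z
  J_symm : ∀ {z y}, J z y → J y z
  /-- (W0) points with four colours on the circle of a centre with complementary ends, or of a
  centre with a J-partner -/
  w0 : ∀ {z m}, (Comp T E z ∨ ∃ y, J z y) → dist m z = 1 → 4 ≤ (T m).ncard → T m = T z
  /-- (W1) no centre with complementary ends has exactly one J-partner -/
  one : ∀ {z y}, Comp T E z → J z y → Two J z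
  /-- (W2) every end has a complementary end -/
  two_compl : ∀ {z v}, Two J z → Comp T E z → E z v → ∃ q, E z q ∧ T q = (T v)ᶜ
  /-- (W2) the arcs of complementary ends are on opposite sides -/
  two_ori : ∀ {z v q}, Two J z → E z v → E z q → T q = (T v)ᶜ → o z q = - o z v
  /-- (W2) complementary ends are at most 120 degrees apart -/
  two_dist : ∀ {z v q}, Two J z → E z v → E z q → T q = (T v)ᶜ → 1 ≤ dist (v + q - z) z
  /-- (W2) the single end lies between the two double ends -/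
  two_cone : ∀ {z v v' q}, Two J z → E z v → E z v' → T v' = T v → v ≠ v' → E z q →
    T q = (T v)ᶜ → ∃ α β : ℝ, 0 < α ∧ 0 < β ∧ q - z = (α : ℂ) * (v - z) + (β : ℂ) * (v' - z)

/-! ## colours -/

section Colours

variable {X Y Z : Set (Fin 6)}

theorem exists_miss (hX : X.ncard = 3) (hXY : (X ∩ Y).ncard = 2) :
    ∃ i ∈ X, i ∉ Y ∧ ∀ j ∈ X, j ∉ Y → j = i := by
  have h : (X \ Y).ncard = 1 := by
    have := Set.ncard_inter_add_ncard_sdiff_eq_ncard X Y (Set.toFinite _)
    omega
  obtain ⟨i, hi⟩ := Set.ncard_eq_one.1 h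
  refine ⟨i, ?_, ?_, fun j hj hj' => ?_⟩
  · have : i ∈ X \ Y := by rw [hi]; rfl
    exact this.1
  · have : i ∈ X \ Y := by rw [hi]; rfl
    exact this.2
  · have : j ∈ X \ Y := ⟨hj, hj'⟩
    rw [hi] at this
    exact this

theorem exists_third (hX : X.ncard = 3) {i j : Fin 6} (hi : i ∈ X) (hj : j ∈ X) (hij : i ≠ j) :
    ∃ k ∈ X, k ≠ i ∧ k ≠ j ∧ ∀ l ∈ X, l = i ∨ l = j ∨ l = k := by
  have h2 : ({i, j} : Set (Fin 6)).ncard = 2 := Set.ncard_pair hij
  have hs : ({i, j} : Set (Fin 6)) ⊆ X := by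
    rintro l (rfl | rfl)
    exacts [hi, hj]
  have h1 : (X \ {i, j}).ncard = 1 := by
    have := Set.ncard_sdiff_add_ncard_of_subset hs (Set.toFinite _)
    omega
  obtain ⟨k, hk⟩ := Set.ncard_eq_one.1 h1
  have hk' : k ∈ X \ {i, j} := by rw [hk]; rfl
  simp only [Set.mem_sdiff, Set.mem_insert_iff, Set.mem_singleton_iff, not_or] at hk'
  refine ⟨k, hk'.1, hk'.2.1, hk'.2.2, fun l hl => ?_⟩
  by_cases h : l ∈ ({i, j} : Set (Fin 6))
  · rcases h with h | h
    · exact Or.inl h
    · exact Or.inr (Or.inl h)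
  · have : l ∈ X \ {i, j} := ⟨hl, h⟩
    rw [hk] at this
    exact Or.inr (Or.inr this)

theorem two_miss (hZ : Z.ncard = 4) {s t : Fin 6} (hs : s ∉ Z) (ht : t ∉ Z) (hst : s ≠ t) :
    ∀ i, i ∉ Z → i = s ∨ i = t := by
  intro i hi
  have h1 := Set.ncard_add_ncard_compl Z (Set.toFinite _) (Set.toFinite _)
  rw [Nat.card_eq_fintype_card, Fintype.card_fin] at h1
  have h2 : ({s, t} : Set (Fin 6)) = Zᶜ := by
    refine Set.eq_of_subset_of_ncard_le ?_ ?_ (Set.toFinite _)
    · rintro j (rfl | rfl)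
      exacts [hs, ht]
    · rw [Set.ncard_pair hst]
      omega
  have : i ∈ ({s, t} : Set (Fin 6)) := by rw [h2]; exact hi
  simpa using this

end Colours

/-! ## general facts -/

section Gen

variable {T : ℂ → Set (Fin 6)} {E J : ℂ → ℂ → Prop} {Pr : ℂ → Set (Fin 6) → Prop}
  {o : ℂ → ℂ → ℝ} {inn : ℂ → ℂ → Fin 6}

theorem JNet.card_w (N : JNet T E J Pr o inn) {z v q : ℂ} (hv : E z v) (hq : E z q)
    (h : T q = (T v)ᶜ) : (T (v + q - z)).ncard = 4 := N.card_z (N.rh hv hq h).1

/-- the other two colours of a centre at an end -/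
theorem JNet.card_compl (N : JNet T E J Pr o inn) {z v : ℂ} (hv : E z v) :
    ((T v)ᶜ ∩ T z).ncard = 2 := by
  have h1 := N.card_z hv
  have h2 := N.card_i hv
  have h3 := Set.ncard_inter_add_ncard_sdiff_eq_ncard (T z) (T v) (Set.toFinite _)
  rw [Set.inter_comm] at h2
  have h4 : (T v)ᶜ ∩ T z = T z \ T v := by
    ext i; simp only [Set.mem_inter_iff, Set.mem_compl_iff, Set.mem_sdiff]; tauto
  rw [h4]
  omega

theorem JNet.compl_card (N : JNet T E J Pr o inn) {z v : ℂ} (hv : E z v) :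
    ((T v)ᶜ).ncard = 3 := by
  have h1 := Set.ncard_add_ncard_compl (T v) (Set.toFinite _) (Set.toFinite _)
  rw [Nat.card_eq_fintype_card, Fintype.card_fin, N.card_v hv] at h1
  omega

/-- a point on two circles of comp centres whose colours are together everything has at most three
colours -/
theorem JNet.le_three (N : JNet T E J Pr o inn) {z w m : ℂ}
    (hz : Comp T E z ∨ ∃ y, J z y) (hw : Comp T E w ∨ ∃ y, J w y) (h4 : (T z).ncard = 4)
    (hall : ∀ i, i ∈ T z ∨ i ∈ T w) (hmz : dist m z = 1) (hmw : dist m w = 1) :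
    (T m).ncard ≤ 3 := by
  by_contra hcon
  have h1 := N.w0 hz hmz (by omega)
  have h2 := N.w0 hw hmw (by omega)
  have h3 : T z = Set.univ := by
    refine Set.eq_univ_of_forall fun i => ?_
    rcases hall i with h | h
    · exact h
    · rw [← h1, h2]; exact h
  rw [h3, Set.ncard_univ, Nat.card_eq_fintype_card, Fintype.card_fin] at h4
  omega

/-! ## the common points of a J-partner and a comp centre -/

/-- the last step: `C₂ = p' + r - A` misses the second colour of `T r` -/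
theorem JNet.core2 (N : JNet T E J Pr o inn) {A y p p' r M : ℂ} (hA : Two J A)
    (hp : E A p) (hp' : E A p') (hr : E A r) (yp : E y p) (yp' : E y p') (hpp : p ≠ p')
    (hT : T p' = T p) (hTr : T r = (T p)ᶜ) (hy : y = p + p' - A) (hAy : A ≠ y) (hJ : J y M)
    {s t : Fin 6} (hs : s ∈ T p) (hsy : s ∈ T y)
    (hs1 : s ∉ T (p + r - A)) (hs2 : s ∉ T (p' + r - A)) (ht : t ∈ T r) (hty : t ∈ T y)
    (ht2 : t ∉ T (p' + r - A)) : False := by
  have hTr' : T r = (T p')ᶜ := by rw [hT, hTr]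
  have c1 := N.rh hp hr hTr
  have c2 := N.rh hp' hr hTr'
  have k2 : (T (p' + r - A)).ncard = 4 := N.card_w hp' hr hTr'
  have hst : s ≠ t := by
    rintro rfl
    rw [hTr] at ht
    exact ht hs
  have hmiss := two_miss k2 hs2 ht2 hst
  have hall2 : ∀ i, i ∈ T y ∨ i ∈ T (p' + r - A) := by
    intro i
    by_cases hi : i ∈ T (p' + r - A)
    · exact Or.inr hi
    · rcases hmiss i hi with rfl | rfl
      exacts [Or.inl hsy, Or.inl hty]
  have comp2 : Comp T E (p' + r - A) := ⟨p', r, c2.1, c2.2, hTr'⟩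
  -- the point `m`
  have hm : ∀ m, m = p + p' + r - 2 * A → (T m = T p ∨ T m = (T p)ᶜ) ∧ E y m ∧
      E (p' + r - A) m := by
    intro m hm
    have d1 : dist m y = 1 := by
      have := N.dist_E hr
      rw [dist_eq_norm] at this ⊢
      rw [← this]
      congr 1
      rw [hm, hy]; ring
    have d2 : dist m (p' + r - A) = 1 := by
      have := N.dist_E hp
      rw [dist_eq_norm] at this ⊢
      rw [← this]
      congr 1
      rw [hm]; ring
    have hle : (T m).ncard ≤ 3 :=
      N.le_three (Or.inr ⟨M, hJ⟩) (Or.inl comp2) (N.card_z yp) hall2 d1 d2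
    -- the two pairs
    have e1 : ((T p' ∩ T y) ∩ (T p' ∩ T (p' + r - A))).ncard = 1 := by
      have h1 := N.card_i yp'
      have h2 : (T p' ∩ T y) ∩ (T p' ∩ T (p' + r - A)) = (T p' ∩ T y) \ {s} := by
        ext i
        simp only [Set.mem_inter_iff, Set.mem_sdiff, Set.mem_singleton_iff]
        constructor
        · rintro ⟨⟨h1, h2⟩, -, h3⟩
          exact ⟨⟨h1, h2⟩, fun h => hs2 (h ▸ h3)⟩
        · rintro ⟨⟨h1, h2⟩, h3⟩
          refine ⟨⟨h1, h2⟩, h1, ?_⟩
          by_contra h4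
          rcases hmiss i h4 with h5 | h5
          · exact h3 h5
          · rw [h5] at h1
            rw [hTr'] at ht
            exact ht h1
      have h3 : s ∈ T p' ∩ T y := ⟨by rw [hT]; exact hs, hsy⟩
      rw [h2, Set.ncard_sdiff_singleton_of_mem h3, h1]
    have e2 : ((T y \ (T p' ∩ T y)) ∩ (T (p' + r - A) \ (T p' ∩ T (p' + r - A)))).ncard = 1 := by
      have h1 := N.card_compl yp'
      have h2 : (T y \ (T p' ∩ T y)) ∩ (T (p' + r - A) \ (T p' ∩ T (p' + r - A))) =
          ((T p')ᶜ ∩ T y) \ {t} := by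
        ext i
        simp only [Set.mem_inter_iff, Set.mem_sdiff, Set.mem_singleton_iff, Set.mem_compl_iff]
        constructor
        · rintro ⟨⟨h1, h2⟩, h3, h4⟩
          exact ⟨⟨fun h => h2 ⟨h, h1⟩, h1⟩, fun h => ht2 (h ▸ h3)⟩
        · rintro ⟨⟨h1, h2⟩, h3⟩
          refine ⟨⟨h2, fun h => h1 h.1⟩, ?_, fun h => h1 h.1⟩
          by_contra h4
          rcases hmiss i h4 with h5 | h5
          · rw [h5] at h1
            exact h1 (by rw [hT]; exact hs)
          · exact h3 h5
      have h3 : t ∈ (T p')ᶜ ∩ T y := ⟨by rw [← hTr']; exact ht, hty⟩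
      rw [h2, Set.ncard_sdiff_singleton_of_mem h3, h1]
    have hne : y ≠ p' + r - A := by
      intro h
      have : p = r := by linear_combination h - hy
      rw [← this] at hTr
      have h3 : s ∈ (T p)ᶜ := by rw [← hTr]; exact hs
      exact h3 hs
    have hne2 : y + (p' + r - A) ≠ 2 * m := by
      intro h
      apply N.anti hp hr hTr
      rw [hm, hy] at h
      linear_combination -h
    have := N.ua (N.pr_E yp') (N.pr_E c2.1) hall2 e1 e2 hne hne2 d1 d2 hle
    have hu : (T p' ∩ T y) ∪ (T p' ∩ T (p' + r - A)) = T p := by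
      ext i
      simp only [Set.mem_union, Set.mem_inter_iff, hT]
      constructor
      · rintro (h | h)
        exacts [h.1, h.1]
      · intro h
        rcases hall2 i with h' | h'
        exacts [Or.inl ⟨h, h'⟩, Or.inr ⟨h, h'⟩]
    rw [hu] at this
    exact this
  obtain ⟨h1, h2, h3⟩ := hm _ rfl
  rcases h1 with h1 | h1
  · -- type `T p`
    have h4 : T r = (T (p + p' + r - 2 * A))ᶜ := by rw [h1, hTr]
    have h5 := N.rh h3 c2.2 h4
    rw [show p + p' + r - 2 * A + r - (p' + r - A) = p + r - A by ring] at h5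
    have h6 := N.uniq h5.1 h3 (by rw [h1]; exact hs) hs1 hs2
    exact hpp (by linear_combination h6)
  · -- the complementary type
    have h4 : T (p + p' + r - 2 * A) = (T p)ᶜ := h1
    have hcy : Comp T E y := ⟨p, _, yp, h2, h4⟩
    have h2y : Two J y := N.one hcy hJ
    obtain ⟨α, β, hα, hβ, e1⟩ := N.two_cone hA hp hp' hT hpp hr hTr
    obtain ⟨α', β', hα', hβ', e2⟩ := N.two_cone h2y yp yp' hT hpp h2 h4
    rw [hy] at e2
    have e3 : ((α + β' : ℝ) : ℂ) * (p - A) = -(((β + α' : ℝ) : ℂ) * (p' - A)) := by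
      push_cast
      linear_combination e2 - e1
    have e4 := congrArg norm e3
    have n1 : ‖p - A‖ = 1 := by rw [← dist_eq_norm]; exact N.dist_E hp
    have n2 : ‖p' - A‖ = 1 := by rw [← dist_eq_norm]; exact N.dist_E hp'
    rw [norm_neg, norm_mul, norm_mul, n1, n2, Complex.norm_real, Complex.norm_real,
      Real.norm_eq_abs, Real.norm_eq_abs, abs_of_pos (by positivity), abs_of_pos (by positivity),
      mul_one, mul_one] at e4
    rw [e4] at e3
    have e5 : ((β + α' : ℝ) : ℂ) ≠ 0 := by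
      have : 0 < β + α' := by positivity
      exact_mod_cast this.ne'
    have e6 : p - A = -(p' - A) := by
      apply mul_left_cancel₀ e5
      rw [e3]; ring
    apply hAy
    rw [hy]
    linear_combination -e6

/-- a J-partner `y` of `M` and a comp centre `A` with two J-partners have no two common ends of
the same type -/
theorem JNet.core (N : JNet T E J Pr o inn) {A y p p' M : ℂ} (hA : Two J A) (cA : Comp T E A)
    (hp : E A p) (hp' : E A p') (yp : E y p) (yp' : E y p') (hpp : p ≠ p')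
    (hT : T p' = T p) (hy : y = p + p' - A) (hAy : A ≠ y) (hJ : J y M)
    (hall : ∀ i, i ∈ T y ∨ i ∈ T A) : False := by
  obtain ⟨r, hr, hTr⟩ := N.two_compl hA cA hp
  have hTr' : T r = (T p')ᶜ := by rw [hT, hTr]
  have c1 := N.rh hp hr hTr
  have c2 := N.rh hp' hr hTr'
  have cr := N.card_v hr
  have a1 : p + r - A ≠ A := fun h => N.anti hp hr hTr (by linear_combination h)
  have a2 : p' + r - A ≠ A := fun h => N.anti hp' hr hTr' (by linear_combination h)
  have a12 : p + r - A ≠ p' + r - A := fun h => hpp (by linear_combination h)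
  have hrp : ∀ i, i ∈ T r → i ∉ T p := fun i hi h => by
    rw [hTr] at hi
    exact hi h
  -- the missing colours in `T p`
  obtain ⟨s', hs', hs'A, us'⟩ := exists_miss (N.card_v hp) (N.card_i hp)
  obtain ⟨e, he, hey, ue⟩ := exists_miss (N.card_v yp) (N.card_i yp)
  have hse : s' ≠ e := by
    rintro rfl
    rcases hall s' with h | h
    exacts [hey h, hs'A h]
  obtain ⟨s, hs, hss', hse', us⟩ := exists_third (N.card_v hp) hs' he hse
  have hsA : s ∈ T A := by
    by_contra h
    exact hss' (us' s hs h)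
  have hsy : s ∈ T y := by
    by_contra h
    exact hse' (ue s hs h)
  -- `C₁` and `C₂` miss `s`
  have hs1 : s ∉ T (p + r - A) := by
    obtain ⟨i, hi, hi1, ui⟩ := exists_miss (N.card_v c1.1) (N.card_i c1.1)
    rcases us i hi with rfl | rfl | rfl
    · exact absurd (N.uniq c1.1 hp hi hi1 hs'A) a1
    · have h := N.uniq c1.1 yp hi hi1 hey
      have h2 : r = p' := by rw [hy] at h; linear_combination h
      rw [h2, hT] at hTr
      have : i ∈ (T p)ᶜ := by rw [← hTr]; exact hi
      exact absurd hi this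
    · exact hi1
  have hs2 : s ∉ T (p' + r - A) := by
    obtain ⟨i, hi, hi1, ui⟩ := exists_miss (N.card_v c2.1) (N.card_i c2.1)
    have hi' : i ∈ T p := by rw [← hT]; exact hi
    rcases us i hi' with rfl | rfl | rfl
    · exact absurd (N.uniq c2.1 hp' hi hi1 hs'A) a2
    · have h := N.uniq c2.1 yp' hi hi1 hey
      have h2 : r = p := by rw [hy] at h; linear_combination h
      rw [h2] at hTr
      have : i ∈ (T p)ᶜ := by rw [← hTr]; exact hi'
      exact absurd hi' this
    · exact hi1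
  -- the missing colours in `T r`
  obtain ⟨t', ht', ht'A, ut'⟩ := exists_miss cr (N.card_i hr)
  have hy2 : (T r ∩ T y).ncard = 2 := by rw [hTr]; exact N.card_compl yp
  obtain ⟨e', he', he'y, ue'⟩ := exists_miss cr hy2
  have hte : t' ≠ e' := by
    rintro rfl
    rcases hall t' with h | h
    exacts [he'y h, ht'A h]
  obtain ⟨t, ht, htt', hte', ut⟩ := exists_third cr ht' he' hte
  have hty : t ∈ T y := by
    by_contra h
    exact hte' (ue' t ht h)
  obtain ⟨i, hi, hi1, ui⟩ := exists_miss cr (N.card_i c1.2)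
  obtain ⟨j, hj, hj1, uj⟩ := exists_miss cr (N.card_i c2.2)
  have hij : i ≠ j := by
    rintro rfl
    exact a12 (N.uniq c1.2 c2.2 hi hi1 hj1)
  have hi2 : i ≠ t' := by
    rintro rfl
    exact a1 (N.uniq c1.2 hr hi hi1 ht'A)
  have hj2 : j ≠ t' := by
    rintro rfl
    exact a2 (N.uniq c2.2 hr hj hj1 ht'A)
  have key : t ∉ T (p + r - A) ∨ t ∉ T (p' + r - A) := by
    rcases ut i hi with h | h | h
    · exact absurd h hi2
    · rcases ut j hj with h' | h' | h'
      · exact absurd h' hj2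
      · exact absurd (h.trans h'.symm) hij
      · exact Or.inr (h' ▸ hj1)
    · exact Or.inl (h ▸ hi1)
  rcases key with h | h
  · refine N.core2 (A := A) (p := p') (p' := p) (r := r) hA hp' hp hr yp' yp hpp.symm hT.symm hTr'
      (by rw [hy]; ring) hAy hJ (s := s) (t := t) (by rw [hT]; exact hs) hsy hs2 hs1 ht hty h
  · exact N.core2 hA hp hp' hr yp yp' hpp hT hTr hy hAy hJ hs hsy hs1 hs2 ht hty h

end Gen

/-! ## the arcs next to a J-partner -/

theorem dt_mul (c x y : ℂ) : dt (c * x) (c * y) = normSq c * dt x y := by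
  unfold dt
  simp only [Complex.mul_re, Complex.mul_im, Complex.normSq_apply]
  ring

theorem dt_exp (s t : ℝ) : dt (exp ((s : ℂ) * I)) (exp ((t : ℂ) * I)) = Real.sin (t - s) := by
  unfold dt
  rw [Complex.exp_ofReal_mul_I_re, Complex.exp_ofReal_mul_I_re, Complex.exp_ofReal_mul_I_im,
    Complex.exp_ofReal_mul_I_im, Real.sin_sub]
  ring

theorem one_sub_cos_lt_sin {t : ℝ} (h0 : 0 < t) (h1 : t ≤ Real.pi / 3) :
    0 < 1 - Real.cos t ∧ 1 - Real.cos t < Real.sin t := by
  have hpi := Real.pi_pos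
  have c1 : 1 / 2 ≤ Real.cos t := by
    rw [← Real.cos_pi_div_three]
    exact Real.cos_le_cos_of_nonneg_of_le_pi h0.le (by linarith) h1
  have s1 : 0 < Real.sin t := Real.sin_pos_of_pos_of_lt_pi h0 (by linarith)
  have e := Real.sin_sq_add_cos_sq t
  have c2 : Real.cos t < 1 := by nlinarith [sq_nonneg (Real.cos t - 1)]
  refine ⟨by linarith, ?_⟩
  by_contra hcon
  push Not at hcon
  nlinarith

theorem norm_arcs_lt {s t u : ℝ} (hs : s = 1 ∨ s = -1) (t0 : 0 < t) (t1 : t ≤ Real.pi / 3)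
    (u0 : 0 < u) (u1 : u ≤ Real.pi / 3) :
    ‖exp (((s * t : ℝ) : ℂ) * I) + exp (((-(s * u) : ℝ) : ℂ) * I) - 1‖ < 1 := by
  obtain ⟨a1, a2⟩ := one_sub_cos_lt_sin t0 t1
  obtain ⟨b1, b2⟩ := one_sub_cos_lt_sin u0 u1
  have e1 := Real.sin_sq_add_cos_sq t
  have e2 := Real.sin_sq_add_cos_sq u
  have h : normSq (exp (((s * t : ℝ) : ℂ) * I) + exp (((-(s * u) : ℝ) : ℂ) * I) - 1) < 1 := by
    rw [Complex.normSq_apply]
    simp only [Complex.add_re, Complex.sub_re, Complex.add_im, Complex.sub_im,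
      Complex.exp_ofReal_mul_I_re, Complex.exp_ofReal_mul_I_im, Complex.one_re, Complex.one_im]
    have hprod := mul_lt_mul'' a2 b2 a1.le b1.le
    rcases hs with rfl | rfl
    · simp only [one_mul, Real.cos_neg, Real.sin_neg]
      nlinarith
    · simp only [neg_mul, one_mul, neg_neg, Real.cos_neg, Real.sin_neg]
      nlinarith
  rw [← Complex.sq_norm] at h
  have := norm_nonneg (exp (((s * t : ℝ) : ℂ) * I) + exp (((-(s * u) : ℝ) : ℂ) * I) - 1)
  nlinarith

section Arc

variable {T : ℂ → Set (Fin 6)} {E J : ℂ → ℂ → Prop} {Pr : ℂ → Set (Fin 6) → Prop}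
  {o : ℂ → ℂ → ℝ} {inn : ℂ → ℂ → Fin 6}

/-- (W2) the J-partner `y` of `M` between the arcs which end at the single end `V` and at the
double end `q`; the other double end is `q'` -/
structure JArc (T : ℂ → Set (Fin 6)) (E J : ℂ → ℂ → Prop) (Pr : ℂ → Set (Fin 6) → Prop)
    (o : ℂ → ℂ → ℝ) (inn : ℂ → ℂ → Fin 6) (M y V q q' : ℂ) : Prop where
  two : Two J M
  jy : J M y
  eV : E M V
  eq : E M q
  eq' : E M q'
  Tq : T q = (T V)ᶜ
  Tq' : T q' = (T V)ᶜ
  ne : q ≠ q'
  pos : ∃ t u : ℝ, 0 < t ∧ t ≤ Real.pi / 3 ∧ 0 < u ∧ u ≤ Real.pi / 3 ∧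
    V - M = (y - M) * exp (((o M V * t : ℝ) : ℂ) * I) ∧
    q - M = (y - M) * exp (((-(o M V * u) : ℝ) : ℂ) * I)
  /-- the pairs of `y` -/
  pr : ∀ c, c ∈ T q → c ∈ T M → c ≠ inn M q → Pr y {inn M V, c}

theorem JArc.comp {M y V q q' : ℂ} (h : JArc T E J Pr o inn M y V q q') : Comp T E M :=
  ⟨V, q, h.eV, h.eq, h.Tq⟩

/-- the position of the two ends -/
theorem JArc.dt_pos (N : JNet T E J Pr o inn) {M y V q q' : ℂ}
    (h : JArc T E J Pr o inn M y V q q') : 0 < o M V * dt (q - M) (V - M) := by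
  obtain ⟨t, u, t0, t1, u0, u1, hV, hq⟩ := h.pos
  have hc : normSq (y - M) = 1 := by
    have := N.J_dist h.jy
    rw [dist_eq_norm] at this
    rw [← Complex.sq_norm, this]; norm_num
  have hpi := Real.pi_pos
  have hs : 0 < Real.sin (t + u) := Real.sin_pos_of_pos_of_lt_pi (by linarith) (by linarith)
  rw [hV, hq, dt_mul, hc, dt_exp]
  rcases N.ori h.eV with ho | ho
  · rw [ho]
    have : (1 : ℝ) * t - -(1 * u) = t + u := by ring
    rw [this]; linarith
  · rw [ho]
    have : (-1 : ℝ) * t - -(-1 * u) = -(t + u) := by ring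
    rw [this, Real.sin_neg]; linarith

/-- `|A' - y| < 1` -/
theorem JArc.near (N : JNet T E J Pr o inn) {M y V q q' : ℂ}
    (h : JArc T E J Pr o inn M y V q q') : dist (V + q - M) y < 1 := by
  obtain ⟨t, u, t0, t1, u0, u1, hV, hq⟩ := h.pos
  have h1 := norm_arcs_lt (N.ori h.eV) t0 t1 u0 u1
  have h2 : V + q - M - y =
      (y - M) * (exp (((o M V * t : ℝ) : ℂ) * I) + exp (((-(o M V * u) : ℝ) : ℂ) * I) - 1) := by
    linear_combination hV + hq
  have h3 := N.J_dist h.jy
  rw [dist_eq_norm] at h3 ⊢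
  rw [h2, norm_mul, h3, one_mul]
  exact h1

/-- the vertex rule at `V`: the arcs of the three centres are on the same side -/
theorem JArc.sgn (N : JNet T E J Pr o inn) {M y V q q' : ℂ}
    (h : JArc T E J Pr o inn M y V q q') :
    o (V + q - M) V = o M V ∧ o (V + q' - M) V = o M V := by
  have hw := N.rh h.eV h.eq h.Tq
  have hw' := N.rh h.eV h.eq' h.Tq'
  obtain ⟨α, β, hα, hβ, hc⟩ := N.two_cone h.two h.eq h.eq' (by rw [h.Tq, h.Tq']) h.ne h.eV
    (by rw [h.Tq, compl_compl])
  have hd := h.dt_pos N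
  have hd0 : dt (q - M) (V - M) ≠ 0 := by
    intro h0
    rw [h0, mul_zero] at hd
    exact lt_irrefl _ hd
  have hqq : dt (q - M) (q' - M) ≠ 0 := by
    intro h0
    apply hd0
    rw [hc]
    have : dt (q - M) ((α : ℂ) * (q - M) + (β : ℂ) * (q' - M)) = β * dt (q - M) (q' - M) := by
      unfold dt; simp; ring
    rw [this, h0, mul_zero]
  obtain ⟨a, b, ha, hb, e⟩ := N.LP3 h.eV h.eq h.Tq hw'.1 hw'.2 h.Tq'
    (fun h0 => N.anti h.eV h.eq' h.Tq' (by linear_combination h0))
    (fun h0 => h.ne (by linear_combination -h0))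
  have e' : ((o (V + q' - M) V - a * o M V * β : ℝ) : ℂ) * (q' - M) +
      ((b * o (V + q - M) V - a * o M V * α : ℝ) : ℂ) * (q - M) = 0 := by
    push_cast
    linear_combination e + (a : ℂ) * (o M V : ℂ) * hc
  -- linear independence
  have key : ∀ x z : ℝ, (x : ℂ) * (q' - M) + (z : ℂ) * (q - M) = 0 → x = 0 ∧ z = 0 := by
    intro x z hxz
    have r1 := congrArg Complex.re hxz
    have r2 := congrArg Complex.im hxz
    simp only [Complex.add_re, Complex.add_im, Complex.re_ofReal_mul, Complex.im_ofReal_mul,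
      Complex.zero_re, Complex.zero_im] at r1 r2
    have x0 : x * dt (q - M) (q' - M) = 0 := by
      unfold dt
      linear_combination (q - M).re * r2 - (q - M).im * r1
    have z0 : z * dt (q - M) (q' - M) = 0 := by
      unfold dt
      linear_combination -(q' - M).re * r2 + (q' - M).im * r1
    exact ⟨(mul_eq_zero.1 x0).resolve_right hqq, (mul_eq_zero.1 z0).resolve_right hqq⟩
  obtain ⟨k1, k2⟩ := key _ _ e'
  have i1 := N.ori hw.1
  have i2 := N.ori hw'.1
  have i3 := N.ori h.eV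
  have k1' : o (V + q' - M) V = a * o M V * β := by linarith
  have k2' : b * o (V + q - M) V = a * o M V * α := by linarith
  have haβ : 0 ≤ a * β := mul_nonneg ha hβ.le
  constructor
  · have ha0 : 0 < a := by
      rcases ha.lt_or_eq with h0 | h0
      · exact h0
      · exfalso
        rw [← h0] at k1'
        rcases i2 with h1 | h1 <;> rw [h1] at k1' <;> norm_num at k1'
    have haα : 0 < a * α := mul_pos ha0 hα
    rcases i1 with h1 | h1 <;> rcases i3 with h3 | h3 <;> rw [h1, h3] at k2' ⊢ <;> nlinarith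
  · rcases i2 with h1 | h1 <;> rcases i3 with h3 | h3 <;> rw [h1, h3] at k1' ⊢ <;> nlinarith

/-- the inner colour of the single end is not a colour of the centre over the J-arc -/
theorem JArc.innV (N : JNet T E J Pr o inn) {M y V q q' : ℂ}
    (h : JArc T E J Pr o inn M y V q q') : inn M V ∉ T (V + q - M) := by
  have hw := N.rh h.eV h.eq h.Tq
  have hl := N.LP1 hw.1 hw.2 h.Tq
  rw [show V + q - (V + q - M) = M by ring, show V + q - M - V = q - M by ring,
    show q - (V + q - M) = -(V - M) by ring, dt_neg_right, (h.sgn N).1] at hl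
  rw [← hl]
  have := h.dt_pos N
  push Not
  linarith

theorem JArc.innV' (N : JNet T E J Pr o inn) {M y V q q' : ℂ}
    (h : JArc T E J Pr o inn M y V q q') : inn M V ∈ T (V + q' - M) := by
  have hw := N.rh h.eV h.eq' h.Tq'
  have hl := N.LP1 hw.1 hw.2 h.Tq'
  rw [show V + q' - (V + q' - M) = M by ring, show V + q' - M - V = q' - M by ring,
    show q' - (V + q' - M) = -(V - M) by ring, dt_neg_right, (h.sgn N).2] at hl
  rw [← hl]
  have hd := h.dt_pos N
  obtain ⟨α, β, hα, hβ, hc⟩ := N.two_cone h.two h.eq h.eq' (by rw [h.Tq, h.Tq']) h.ne h.eV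
    (by rw [h.Tq, compl_compl])
  have e1 : dt (q - M) (V - M) = β * dt (q - M) (q' - M) := by
    rw [hc]; unfold dt; simp; ring
  have e2 : dt (q' - M) (V - M) = -(α * dt (q - M) (q' - M)) := by
    rw [hc]; unfold dt; simp; ring
  rw [e1] at hd
  rw [e2]
  have h3 : 0 < β * (o M V * dt (q - M) (q' - M)) := by linarith
  have h4 := (mul_pos_iff_of_pos_left hβ).1 h3
  have h5 := mul_pos hα h4
  linarith

/-- the inner colour of the double end -/
theorem JArc.innq (N : JNet T E J Pr o inn) {M y V q q' : ℂ}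
    (h : JArc T E J Pr o inn M y V q q') :
    inn M q ∈ T (V + q - M) ↔ o (V + q - M) q = o M V := by
  have hw := N.rh h.eV h.eq h.Tq
  have hl := N.LP1 hw.2 hw.1 (by rw [h.Tq, compl_compl])
  rw [show q + V - (V + q - M) = M by ring, show V + q - M - q = V - M by ring,
    show V - (V + q - M) = -(q - M) by ring, dt_neg_right, dt_comm (q - M) (V - M),
    neg_neg] at hl
  rw [← hl]
  have hd := h.dt_pos N
  rcases N.ori hw.2 with h1 | h1 <;> rcases N.ori h.eV with h3 | h3 <;> rw [h1, h3] <;>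
    rw [h3] at hd
  · simp at hd ⊢; exact hd
  · simp at hd ⊢
    constructor
    · intro h5; linarith
    · intro h5; norm_num at h5
  · simp at hd ⊢
    constructor
    · intro h5; linarith
    · intro h5; norm_num at h5
  · simp at hd ⊢; exact hd

/-- two unit circles -/
theorem exists_common {z w : ℂ} (hne : z ≠ w) (h2 : dist z w < 2) :
    ∃ p p' : ℂ, p ≠ p' ∧ p + p' = z + w ∧ dist p z = 1 ∧ dist p w = 1 ∧ dist p' z = 1 ∧
      dist p' w = 1 ∧ z + w ≠ 2 * p ∧ z + w ≠ 2 * p' := by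
  set d := w - z with hd
  have hd0 : d ≠ 0 := sub_ne_zero.2 hne.symm
  have hn0 : 0 < normSq d := Complex.normSq_pos.2 hd0
  have hn4 : normSq d < 4 := by
    rw [← Complex.sq_norm]
    rw [dist_comm, dist_eq_norm] at h2
    have := norm_nonneg d
    nlinarith
  set s := Real.sqrt (1 / normSq d - 1 / 4) with hs
  have hpos : 0 < 1 / normSq d - 1 / 4 := by
    rw [sub_pos]
    exact one_div_lt_one_div_of_lt hn0 hn4
  have hs0 : 0 < s := Real.sqrt_pos.2 hpos
  have hs2 : s ^ 2 = 1 / normSq d - 1 / 4 := Real.sq_sqrt hpos.le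
  have key : ∀ e1 e2 : ℝ, e1 ^ 2 = 1 / 4 → e2 ^ 2 = s ^ 2 →
      ‖d * ((e1 : ℂ) + (e2 : ℂ) * I)‖ = 1 := by
    intro e1 e2 h1 h2
    have : normSq (d * ((e1 : ℂ) + (e2 : ℂ) * I)) = 1 := by
      rw [map_mul, Complex.normSq_add_mul_I, h1, h2, hs2]
      field_simp
      ring
    rw [← Complex.sq_norm] at this
    have h3 := norm_nonneg (d * ((e1 : ℂ) + (e2 : ℂ) * I))
    nlinarith
  have hI : d * ((s : ℂ) * I) ≠ 0 := by
    refine mul_ne_zero hd0 (mul_ne_zero ?_ I_ne_zero)
    exact_mod_cast hs0.ne'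
  refine ⟨z + d * (((1 / 2 : ℝ) : ℂ) + (s : ℂ) * I),
    z + d * (((1 / 2 : ℝ) : ℂ) + ((-s : ℝ) : ℂ) * I), ?_, ?_, ?_, ?_, ?_, ?_, ?_, ?_⟩
  · intro h
    apply hI
    push_cast at h
    linear_combination h / 2
  · push_cast
    rw [hd]; ring
  · rw [dist_eq_norm, add_sub_cancel_left]
    exact key _ _ (by norm_num) rfl
  · rw [dist_eq_norm, show z + d * (((1 / 2 : ℝ) : ℂ) + (s : ℂ) * I) - w =
      d * (((-1 / 2 : ℝ) : ℂ) + (s : ℂ) * I) by push_cast; rw [hd]; ring]
    exact key _ _ (by norm_num) rfl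
  · rw [dist_eq_norm, add_sub_cancel_left]
    exact key _ _ (by norm_num) (by ring)
  · rw [dist_eq_norm, show z + d * (((1 / 2 : ℝ) : ℂ) + ((-s : ℝ) : ℂ) * I) - w =
      d * (((-1 / 2 : ℝ) : ℂ) + ((-s : ℝ) : ℂ) * I) by push_cast; rw [hd]; ring]
    exact key _ _ (by norm_num) (by ring)
  · intro h
    apply hI
    push_cast at h
    rw [show w = z + d by rw [hd]; ring] at h
    linear_combination -h / 2
  · intro h
    apply hI
    push_cast at h
    rw [show w = z + d by rw [hd]; ring] at h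
    linear_combination h / 2

/-- the remaining colour of a centre at an end -/
theorem JNet.outer (N : JNet T E J Pr o inn) {z v : ℂ} (hv : E z v) :
    ∃ b, b ∈ T v ∧ b ∈ T z ∧ b ≠ inn z v ∧ ∀ i, i ∈ T v → i ∈ T z → i = inn z v ∨ i = b := by
  have h1 := N.card_i hv
  have h2 := N.inn_mem hv
  have h3 : ((T v ∩ T z) \ {inn z v}).ncard = 1 := by
    rw [Set.ncard_sdiff_singleton_of_mem h2, h1]
  obtain ⟨b, hb⟩ := Set.ncard_eq_one.1 h3
  have hb' : b ∈ (T v ∩ T z) \ {inn z v} := by rw [hb]; rfl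
  refine ⟨b, hb'.1.1, hb'.1.2, hb'.2, fun i hi hi' => ?_⟩
  by_cases h : i = inn z v
  · exact Or.inl h
  · right
    have : i ∈ (T v ∩ T z) \ {inn z v} := ⟨⟨hi, hi'⟩, h⟩
    rw [hb] at this
    exact this

/-- **(3) of the text of 838: the centre over the J-arc does not have two J-partners.** -/
theorem JArc.not_two (N : JNet T E J Pr o inn) {M y V q q' : ℂ}
    (h : JArc T E J Pr o inn M y V q q') : ¬ Two J (V + q - M) := by
  intro hA
  have hw := N.rh h.eV h.eq h.Tq
  have cA : Comp T E (V + q - M) := ⟨V, q, hw.1, hw.2, h.Tq⟩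
  have hTy : T y = T M := N.J_T h.jy
  have h4M := N.card_z h.eV
  have h4A := N.card_z hw.1
  have hcov := N.cov h.eV h.eq h.Tq
  have hall : ∀ i, i ∈ T y ∨ i ∈ T (V + q - M) := fun i => by rw [hTy]; exact hcov i
  -- the colours
  obtain ⟨b, bV, bM, bn, ub⟩ := N.outer h.eV
  obtain ⟨c, cq, cM, cn, uc⟩ := N.outer h.eq
  have aV := (N.inn_mem h.eV).1
  have aM := (N.inn_mem h.eV).2
  have dq := (N.inn_mem h.eq).1
  have dM := (N.inn_mem h.eq).2
  have hVq : ∀ i, i ∈ T V → i ∉ T q := fun i hi hi' => by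
    rw [h.Tq] at hi'
    exact hi' hi
  have hVq' : ∀ i, i ∈ T V ∨ i ∈ T q := fun i => by
    rw [h.Tq]
    exact em _
  have aA : inn M V ∉ T (V + q - M) := h.innV N
  have dA : inn M q ∉ T (V + q - M) := by
    rw [h.innq N, N.two_ori hA hw.1 hw.2 h.Tq, (h.sgn N).1]
    rcases N.ori h.eV with h1 | h1 <;> rw [h1] <;> norm_num
  have hmiss : ∀ i, i ∉ T (V + q - M) → i = inn M V ∨ i = inn M q :=
    two_miss h4A aA dA fun h1 => hVq _ aV (h1 ▸ dq)
  have bA : b ∈ T (V + q - M) := by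
    by_contra h1
    rcases hmiss b h1 with h2 | h2
    · exact bn h2
    · exact hVq _ bV (h2 ▸ dq)
  have cA' : c ∈ T (V + q - M) := by
    by_contra h1
    rcases hmiss c h1 with h2 | h2
    · exact hVq _ aV (h2 ▸ cq)
    · exact cn h2
  -- the pairs
  have hPy := h.pr c cq cM cn
  have hPA := N.pr_E hw.2
  have e1 : (({inn M V, c} : Set (Fin 6)) ∩ (T q ∩ T (V + q - M))).ncard = 1 := by
    rw [Set.ncard_eq_one]
    refine ⟨c, ?_⟩
    ext i
    simp only [Set.mem_inter_iff, Set.mem_insert_iff, Set.mem_singleton_iff]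
    constructor
    · rintro ⟨h1 | h1, h2, h3⟩
      · rw [h1] at h3
        exact absurd h3 aA
      · exact h1
    · rintro rfl
      exact ⟨Or.inr rfl, cq, cA'⟩
  have e2 : ((T y \ ({inn M V, c} : Set (Fin 6))) ∩
      (T (V + q - M) \ (T q ∩ T (V + q - M)))).ncard = 1 := by
    rw [Set.ncard_eq_one]
    refine ⟨b, ?_⟩
    ext i
    simp only [Set.mem_inter_iff, Set.mem_sdiff, Set.mem_insert_iff, Set.mem_singleton_iff, hTy]
    constructor
    · rintro ⟨⟨h1, h2⟩, h3, h5⟩
      push Not at h2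
      have h6 : i ∈ T V := (hVq' i).resolve_right fun h7 => h5 ⟨h7, h3⟩
      exact (ub i h6 h1).resolve_left h2.1
    · rintro rfl
      refine ⟨⟨bM, ?_⟩, bA, fun h7 => hVq _ bV h7.1⟩
      push Not
      refine ⟨bn, ?_⟩
      rintro rfl
      exact hVq _ bV cq
  have hAy : V + q - M ≠ y := by
    intro h1
    rw [h1, hTy] at aA
    exact aA aM
  have hlt := h.near N
  obtain ⟨p, p', hpp, hsum, d1, d2, d3, d4, n1, n2⟩ :=
    exists_common hAy.symm (by rw [dist_comm]; linarith)
  have hcom : ∀ m, dist m y = 1 → dist m (V + q - M) = 1 → y + (V + q - M) ≠ 2 * m →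
      (T m = {inn M V, c} ∪ (T q ∩ T (V + q - M)) ∨
        T m = ({inn M V, c} ∪ (T q ∩ T (V + q - M)))ᶜ) ∧ E y m ∧ E (V + q - M) m := by
    intro m h1 h2 h3
    have hle := N.le_three (z := y) (w := V + q - M) (Or.inr ⟨M, N.J_symm h.jy⟩) (Or.inl cA)
      (by rw [hTy]; exact h4M) hall h1 h2
    exact N.ua hPy hPA hall e1 e2 hAy.symm h3 h1 h2 hle
  obtain ⟨t1, yp, Ap⟩ := hcom p d1 d2 n1
  obtain ⟨t2, yp', Ap'⟩ := hcom p' d3 d4 n2
  have hy : y = p + p' - (V + q - M) := by linear_combination -hsum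
  by_cases hT : T p' = T p
  · exact N.core hA cA Ap Ap' yp yp' hpp hT hy hAy (N.J_symm h.jy) hall
  · have hT' : T p' = (T p)ᶜ := by
      rcases t1 with t1 | t1 <;> rcases t2 with t2 | t2
      · exact absurd (t2.trans t1.symm) hT
      · rw [t1, t2]
      · rw [t1, t2, compl_compl]
      · exact absurd (t2.trans t1.symm) hT
    have h1 := N.two_dist hA Ap Ap' hT'
    rw [← hy, dist_comm] at h1
    linarith

end Arc

end Vale.Agent.P032.H946
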