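import Vale.Agent.P032.H946.JDead
import Vale.Agent.P032.H695.TwoSq2
import Vale.Agent.P032.H594.JZero

/-!
# P032: `JArc` from the arcs on the two sides of a `J`-partner

`jpairs` : `y = pt z φ` a `J`-partner of `z` (angles in units of 60 degrees), an `ab`-arc before `φ`
and a `cd`-arc after it: the pairs of `y` and the inner colours of `z` at the ends of the arcs.
`jarc_post`, `jarc_pre` : the data `JArc`.
-/

open Set Filter Topology Metric

noncomputable section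

namespace Vale.Agent.P032.H946

open Vale.Agent.P032.Six Vale.Agent.P032.S5.H767 Vale.Agent.P032.S5.H349 Vale.Agent.P032.S5.H450
open Vale.Agent.P032.S5.H358 Vale.Agent.P032.H597 Vale.Agent.P032.H471 Vale.Agent.P032.H695

variable {U : Fin 6 → Set ℂ} {T : ℂ → Set (Fin 6)} {z y : ℂ} {a b c d e f : Fin 6} {φ s t : ℝ}

/-- the pairs of a two-pair point next to a two-pair centre, in the angle coordinate -/
theorem germ946 (h : Irr U T) (hz : DPt T z a b c d) (hTy : T y = T z) (yz : y = pt z φ) :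
    ∃ α α' γ γ', ((α = a ∧ α' = b) ∨ (α = b ∧ α' = a)) ∧ ((γ = c ∧ γ' = d) ∨ (γ = d ∧ γ' = c)) ∧
      DPt T y α γ α' γ' ∧ ∀ᶠ x in 𝓝[<] (3 : ℝ), T (pt y (φ + x)) = {α, γ} := by
  have hpi := Real.pi_pos
  have hzy : dist z y = 1 := by rw [dist_comm, yz]; exact dist_pt z φ
  obtain ⟨α', α, γ', γ, hα, hγ, h1, h2⟩ := h.germ_ex hz hzy
  have hb1 : ∀ t : ℝ, y + (z - y) * cis t = hb y z 1 t := fun t => by rw [hb, one_mul]
  have hb2 : ∀ t : ℝ, y + (z - y) * cis (-t) = hb y z (-1) t := fun t => by rw [hb, neg_one_mul]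
  simp only [hb1] at h1
  simp only [hb2] at h2
  have hm : ∀ i, i ∈ T z → i ∈ Pal U y := fun i hi => h.sub _ (by rw [hTy]; exact hi)
  have mα : α ∈ T z ∧ α' ∈ T z := by
    rw [hz.pal]
    rcases hα with ⟨rfl, rfl⟩ | ⟨rfl, rfl⟩ <;> simp
  have mγ : γ ∈ T z ∧ γ' ∈ T z := by
    rw [hz.pal]
    rcases hγ with ⟨rfl, rfl⟩ | ⟨rfl, rfl⟩ <;> simp
  have e1 := h.hb_exact hzy h1 (hm _ mα.2) (hm _ mγ.2)
  have e2 := h.hb_exact hzy h2 (hm _ mα.1) (hm _ mγ.1)
  have nαγ : α ≠ γ ∧ α ≠ γ' ∧ α' ≠ γ ∧ α' ≠ γ' ∧ α ≠ α' ∧ γ ≠ γ' := by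
    rcases hα with ⟨rfl, rfl⟩ | ⟨rfl, rfl⟩ <;> rcases hγ with ⟨rfl, rfl⟩ | ⟨rfl, rfl⟩
    · exact ⟨hz.bd, hz.bc, hz.ad, hz.ac, hz.ab.symm, hz.cd.symm⟩
    · exact ⟨hz.bc, hz.bd, hz.ac, hz.ad, hz.ab.symm, hz.cd⟩
    · exact ⟨hz.ad, hz.ac, hz.bd, hz.bc, hz.ab, hz.cd.symm⟩
    · exact ⟨hz.ac, hz.ad, hz.bc, hz.bd, hz.ab, hz.cd⟩
  obtain ⟨n1, n2, n3, n4, n5, n6⟩ := nαγ
  obtain ⟨q1, q1d, q1T⟩ := hb_exists hzy e1
  obtain ⟨q2, q2d, q2T⟩ := hb_exists hzy e2
  refine ⟨α, α', γ, γ', by tauto, by tauto, ⟨?_, n5, n2, n3.symm, n6, n1, n4, ?_, ?_⟩, ?_⟩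
  · rw [hTy, hz.pal]
    rcases hα with ⟨rfl, rfl⟩ | ⟨rfl, rfl⟩ <;> rcases hγ with ⟨rfl, rfl⟩ | ⟨rfl, rfl⟩ <;>
    · ext i
      simp only [mem_insert_iff, mem_singleton_iff]
      tauto
  · exact ⟨q2, h.arc_of_eq n1 (by rw [hTy]; exact mα.1) (by rw [hTy]; exact mγ.1) q2d q2T⟩
  · exact ⟨q1, h.arc_of_eq n4 (by rw [hTy]; exact mα.2) (by rw [hTy]; exact mγ.2) q1d q1T⟩
  · have hc : Tendsto (fun x : ℝ => (3 - x) * (Real.pi / 3)) (𝓝[<] 3) (𝓝[>] 0) := by
      refine tendsto_nhdsWithin_iff.2 ⟨?_, ?_⟩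
      · have h3 : Continuous fun x : ℝ => (3 - x) * (Real.pi / 3) := by fun_prop
        have h4 := h3.tendsto 3
        rw [sub_self, zero_mul] at h4
        exact h4.mono_left nhdsWithin_le_nhds
      · filter_upwards [self_mem_nhdsWithin] with x hx
        have hx' : x < 3 := hx
        show (0 : ℝ) < (3 - x) * (Real.pi / 3)
        exact mul_pos (by linarith) (by positivity)
    filter_upwards [hc.eventually e2] with x hx
    rw [← hx]
    congr 1
    rw [hb, ← z_pt yz]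
    unfold pt
    rw [add_sub_cancel_left, ← S5.H767.cis_add]
    congr 2
    ring

/-- **the pairs of a `J`-partner and the inner colours at the ends of the arcs next to it** -/
theorem jpairs (h : Irr U T) (hz : DPt T z a b c d) (hTy : T y = T z) (yz : y = pt z φ)
    (s0 : 0 < s) (s1 : s ≤ 1) (t0 : 0 < t) (t1 : t ≤ 1)
    (hP : ∀ x ∈ Ioo (φ - s) φ, T (pt z x) = {a, b})
    (hQ : ∀ x ∈ Ioo φ (φ + t), T (pt z x) = {c, d})
    (hv : T z ∩ T (pt z (φ - s)) = {a, b}) (hx : T z ∩ T (pt z (φ + t)) = {c, d}) :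
    ∃ α α' γ γ', ((α = a ∧ α' = b) ∨ (α = b ∧ α' = a)) ∧ ((γ = c ∧ γ' = d) ∨ (γ = d ∧ γ' = c)) ∧
      DPt T y α γ α' γ' ∧ inn U T z (pt z (φ - s)) = α' ∧ inn U T z (pt z (φ + t)) = γ := by
  have hpi := Real.pi_pos
  obtain ⟨α, α', γ, γ', hα, hγ, hD, hX⟩ := germ946 h hz hTy yz
  refine ⟨α, α', γ, γ', hα, hγ, hD, ?_, ?_⟩
  · -- the end of the arc before `φ`
    have hz' : DPt T z α' α c d := by
      rcases hα with ⟨rfl, rfl⟩ | ⟨rfl, rfl⟩
      · exact hz.swap12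
      · exact hz
    have hα2 : ({a, b} : Set (Fin 6)) = {α', α} := by
      rcases hα with ⟨rfl, rfl⟩ | ⟨rfl, rfl⟩
      · exact pair_comm _ _
      · rfl
    rw [EE.inn_iff h hz' (dist_pt z _) (by rw [hv, hα2])]
    have hg : Arc T z (pt z (φ + t / 2)) {c, d} :=
      h.arc_of_eq hz.cd (by rw [hz.pal]; simp) (by rw [hz.pal]; simp) (dist_pt z _)
        (hQ _ ⟨by linarith, by linarith⟩)
    obtain ⟨ε, hε, hs⟩ := h.sd_iff492 hz' hg
    have hT1 := hP (φ + -(s / 2)) ⟨by linarith, by linarith⟩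
    rw [hα2] at hT1
    have k := not_sd_in h (c := α) (d := α') (dist_pt z (φ + -(s / 2)))
      (by rw [hT1, pair_comm]) (freq_in yz (c := α) (hX.mono fun x hx => by rw [hx]; exact Or.inl rfl)
        (by linarith) (by linarith))
    have k' : Sd U z (pt z (φ + -(s / 2))) α' α := (h.sides hz' (dist_pt z _)).resolve_right k
    have n1 : cr (pt z (φ + t / 2) - z) (pt z (φ + -(s / 2)) - z) < 0 := by
      rw [cr_pt]
      exact Real.sin_neg_of_neg_of_neg_pi_lt (by nlinarith) (by nlinarith)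
    have n3 : cr (pt z (φ + t / 2) - z) (pt z (φ - s) - z) < 0 := by
      rw [cr_pt]
      exact Real.sin_neg_of_neg_of_neg_pi_lt (by nlinarith) (by nlinarith)
    have m1 : α' ∈ T (pt z (φ + -(s / 2))) := by rw [hT1]; exact Or.inl rfl
    have m3 : α' ∈ T (pt z (φ - s)) := by
      have : α' ∈ T z ∩ T (pt z (φ - s)) := by rw [hv, hα2]; exact Or.inl rfl
      exact this.2
    rw [hs _ (dist_pt z _) m1 n1.ne] at k'
    rw [hs _ (dist_pt z _) m3 n3.ne]
    rcases hε with rfl | rfl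
    · linarith
    · linarith
  · -- the end of the arc after `φ`
    have hz' : DPt T z γ γ' a b := by
      rcases hγ with ⟨rfl, rfl⟩ | ⟨rfl, rfl⟩
      · exact hz.swap
      · exact hz.swap.swap12
    have hγ2 : ({c, d} : Set (Fin 6)) = {γ, γ'} := by
      rcases hγ with ⟨rfl, rfl⟩ | ⟨rfl, rfl⟩
      · rfl
      · exact pair_comm _ _
    rw [EE.inn_iff h hz' (dist_pt z _) (by rw [hx, hγ2])]
    have hg : Arc T z (pt z (φ + -(s / 2))) {a, b} :=
      h.arc_of_eq hz.ab (by rw [hz.pal]; simp) (by rw [hz.pal]; simp) (dist_pt z _)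
        (hP _ ⟨by linarith, by linarith⟩)
    obtain ⟨ε, hε, hs⟩ := h.sd_iff492 hz' hg
    have hT1 := hQ (φ + t / 2) ⟨by linarith, by linarith⟩
    rw [hγ2] at hT1
    have k := not_sd_out h (a := γ) (b := γ') (dist_pt z (φ + t / 2))
      hT1.subset (freq_out yz (a := γ) (hX.mono fun x hx => by rw [hx]; exact Or.inr rfl)
        (by linarith) (by linarith))
    have k' : Sd U z (pt z (φ + t / 2)) γ γ' := (h.sides hz' (dist_pt z _)).resolve_right k
    have n1 : 0 < cr (pt z (φ + -(s / 2)) - z) (pt z (φ + t / 2) - z) := by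
      rw [cr_pt]
      exact Real.sin_pos_of_pos_of_lt_pi (by nlinarith) (by nlinarith)
    have n3 : 0 < cr (pt z (φ + -(s / 2)) - z) (pt z (φ + t) - z) := by
      rw [cr_pt]
      exact Real.sin_pos_of_pos_of_lt_pi (by nlinarith) (by nlinarith)
    have m1 : γ ∈ T (pt z (φ + t / 2)) := by rw [hT1]; exact Or.inl rfl
    have m3 : γ ∈ T (pt z (φ + t)) := by
      have : γ ∈ T z ∩ T (pt z (φ + t)) := by rw [hx, hγ2]; exact Or.inl rfl
      exact this.2
    rw [hs _ (dist_pt z _) m1 n1.ne'] at k'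
    rw [hs _ (dist_pt z _) m3 n3.ne']
    rcases hε with rfl | rfl
    · linarith
    · linarith

/-- `J`-partner and the arcs on its two sides, with complementary far ends -/
structure JSd (U : Fin 6 → Set ℂ) (T : ℂ → Set (Fin 6)) (z y : ℂ) (a b c d e f : Fin 6)
    (φ s t : ℝ) : Prop where
  nd : [a, b, c, d, e, f].Nodup
  hz : DPt T z a b c d
  jy : Jp T z y
  yz : y = pt z φ
  s0 : 0 < s
  s1 : s ≤ 1
  t0 : 0 < t
  t1 : t ≤ 1
  P : ∀ x ∈ Ioo (φ - s) φ, T (pt z x) = {a, b}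
  Q : ∀ x ∈ Ioo φ (φ + t), T (pt z x) = {c, d}
  p : T (pt z (φ - s)) = {a, b, e}
  q : T (pt z (φ + t)) = {c, d, f}

namespace JSd

theorem eT (S : JSd U T z y a b c d e f φ s t) : e ∉ T z ∧ f ∉ T z := by
  obtain ⟨⟨ab, ac, ad, ae, af⟩, ⟨bc, bd, be, bf⟩, ⟨cd, ce, cf⟩, ⟨de, df⟩, ef⟩ :=
    S5.H349.nd_ne S.nd
  rw [S.hz.pal]
  simp only [mem_insert_iff, mem_singleton_iff, not_or]
  exact ⟨⟨ae.symm, be.symm, ce.symm, de.symm⟩, ⟨af.symm, bf.symm, cf.symm, df.symm⟩⟩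

theorem op (S : JSd U T z y a b c d e f φ s t) : OEnd T z (pt z (φ - s)) (-1) :=
  oend_arc S.hz S.eT.1 (Or.inr rfl) S.p S.s0 fun r h1 h2 => by
    rw [show φ - s - -1 * r = φ - s + r by ring]
    exact S.P _ ⟨by linarith, by linarith⟩

theorem oq (S : JSd U T z y a b c d e f φ s t) : OEnd T z (pt z (φ + t)) 1 :=
  oend_arc S.hz.swap S.eT.2 (Or.inl rfl) S.q S.t0 fun r h1 h2 => by
    rw [show φ + t - 1 * r = φ + t - r by ring]
    exact S.Q _ ⟨by linarith, by linarith⟩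

theorem ep (S : JSd U T z y a b c d e f φ s t) : EE T z (pt z (φ - s)) :=
  ee_arc S.hz S.eT.1 S.p S.op

theorem eq (S : JSd U T z y a b c d e f φ s t) : EE T z (pt z (φ + t)) :=
  ee_arc S.hz.swap S.eT.2 S.q S.oq

theorem compl (S : JSd U T z y a b c d e f φ s t) :
    T (pt z (φ + t)) = (T (pt z (φ - s)))ᶜ := by
  rw [S.p, S.q]
  have nd := S.nd
  revert a b c d e f
  intro a b c d e f S nd
  obtain ⟨⟨ab, ac, ad, ae, af⟩, ⟨bc, bd, be, bf⟩, ⟨cd, ce, cf⟩, ⟨de, df⟩, ef⟩ :=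
    S5.H349.nd_ne nd
  have hall : ∀ i : Fin 6, i ∈ [a, b, c, d, e, f] := by
    intro i
    have h1 : ([a, b, c, d, e, f].toFinset).card = 6 := List.toFinset_card_of_nodup nd
    have h2 : [a, b, c, d, e, f].toFinset = Finset.univ := by
      apply Finset.eq_univ_of_card; rw [h1]; rfl
    have : i ∈ [a, b, c, d, e, f].toFinset := by rw [h2]; exact Finset.mem_univ _
    simpa using this
  ext i
  simp only [mem_insert_iff, mem_singleton_iff, mem_compl_iff, not_or]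
  constructor
  · rintro (rfl | rfl | rfl)
    · exact ⟨ac.symm, bc.symm, ce⟩
    · exact ⟨ad.symm, bd.symm, de⟩
    · exact ⟨af.symm, bf.symm, ef.symm⟩
  · rintro ⟨h1, h2, h3⟩
    have := hall i
    simp only [List.mem_cons, List.not_mem_nil, or_false] at this
    tauto

theorem compl' (S : JSd U T z y a b c d e f φ s t) :
    T (pt z (φ - s)) = (T (pt z (φ + t)))ᶜ := by rw [S.compl, compl_compl]

theorem ore_p (h : Irr U T) (hS : Sec4 T) (S : JSd U T z y a b c d e f φ s t) :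
    ore T z (pt z (φ - s)) = -1 :=
  (H594.sgn594' h hS S.ep S.eq S.compl S.op).symm

theorem ore_q (S : JSd U T z y a b c d e f φ s t) : ore T z (pt z (φ + t)) = 1 := ore_pos S.oq

theorem ip (S : JSd U T z y a b c d e f φ s t) : T z ∩ T (pt z (φ - s)) = {a, b} :=
  inter_arc S.hz S.eT.1 S.p

theorem iq (S : JSd U T z y a b c d e f φ s t) : T z ∩ T (pt z (φ + t)) = {c, d} :=
  inter_arc S.hz.swap S.eT.2 S.q

theorem rot (S : JSd U T z y a b c d e f φ s t) (x : ℝ) :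
    pt z (φ + x) - z = (y - z) * Complex.exp ((((x * (Real.pi / 3)) : ℝ) : ℂ) * Complex.I) := by
  rw [S.yz, pt_sub, pt_sub, add_mul, S5.H767.cis_add]
  congr 1

/-- **the single end is after the `J`-partner** -/
theorem post (h : Irr U T) (S : JSd U T z y a b c d e f φ s t)
    (h2 : Two (Jp T) z) {q' : ℂ} (hq' : EE T z q') (hT : T q' = {a, b, e})
    (hne : q' ≠ pt z (φ - s)) :
    JArc T (EE T) (Jp T) (Prs T) (ore T) (inn U T) z y (pt z (φ + t)) (pt z (φ - s)) q' where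
  two := h2
  jy := S.jy
  eV := S.eq
  eq := S.ep
  eq' := hq'
  Tq := S.compl'
  Tq' := by rw [hT, ← S.p]; exact S.compl'
  ne := hne.symm
  pos := by
    have hpi := Real.pi_pos
    have t0 := S.t0
    have t1 := S.t1
    have s0 := S.s0
    have s1 := S.s1
    refine ⟨t * (Real.pi / 3), s * (Real.pi / 3), by positivity, by nlinarith, by positivity,
      by nlinarith, ?_, ?_⟩
    · rw [S.ore_q, one_mul]; exact S.rot t
    · rw [S.ore_q, one_mul, sub_eq_add_neg φ s, S.rot (-s)]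
      congr 4
      ring
  pr := by
    intro c' h1 h2' h3
    obtain ⟨α, α', γ, γ', hα, hγ, hD, i1, i2⟩ := jpairs h S.hz S.jy.2.2.2 S.yz S.s0 S.s1 S.t0
      S.t1 S.P S.Q S.ip S.iq
    rw [i1] at h3
    rw [i2]
    have h4 : c' ∈ T z ∩ T (pt z (φ - s)) := ⟨h2', h1⟩
    rw [S.ip] at h4
    have h5 : c' = α := by
      rcases hα with ⟨rfl, rfl⟩ | ⟨rfl, rfl⟩
      · exact h4.resolve_right h3
      · exact h4.resolve_left h3
    subst h5
    exact ⟨_, _, _, _, hD, pair_comm _ _⟩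

/-- **the single end is before the `J`-partner** -/
theorem pre (h : Irr U T) (hS : Sec4 T) (S : JSd U T z y a b c d e f φ s t)
    (h2 : Two (Jp T) z) {q' : ℂ} (hq' : EE T z q') (hT : T q' = {c, d, f})
    (hne : q' ≠ pt z (φ + t)) :
    JArc T (EE T) (Jp T) (Prs T) (ore T) (inn U T) z y (pt z (φ - s)) (pt z (φ + t)) q' where
  two := h2
  jy := S.jy
  eV := S.ep
  eq := S.eq
  eq' := hq'
  Tq := S.compl
  Tq' := by rw [hT, ← S.q]; exact S.compl
  ne := hne.symm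
  pos := by
    have hpi := Real.pi_pos
    have t0 := S.t0
    have t1 := S.t1
    have s0 := S.s0
    have s1 := S.s1
    refine ⟨s * (Real.pi / 3), t * (Real.pi / 3), by positivity, by nlinarith, by positivity,
      by nlinarith, ?_, ?_⟩
    · rw [S.ore_p h hS, sub_eq_add_neg φ s, S.rot (-s)]
      congr 4
      ring
    · rw [S.ore_p h hS, S.rot t]
      congr 4
      ring
  pr := by
    intro c' h1 h2' h3
    obtain ⟨α, α', γ, γ', hα, hγ, hD, i1, i2⟩ := jpairs h S.hz S.jy.2.2.2 S.yz S.s0 S.s1 S.t0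
      S.t1 S.P S.Q S.ip S.iq
    rw [i2] at h3
    rw [i1]
    have h4 : c' ∈ T z ∩ T (pt z (φ + t)) := ⟨h2', h1⟩
    rw [S.iq] at h4
    have h5 : c' = γ' := by
      rcases hγ with ⟨rfl, rfl⟩ | ⟨rfl, rfl⟩
      · exact h4.resolve_left h3
      · exact h4.resolve_right h3
    subst h5
    exact ⟨_, _, _, _, hD.swap, rfl⟩

end JSd

end Vale.Agent.P032.H946
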