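import Vale.Agent.P032.H946.JEnd
import Vale.Agent.P032.H987.Tri

/-!
# P032: no J-arc between the ends of a comp network

`jarc_dead` : in the frame, with the word facts of `JNet` and without `(2,2)` networks, there is no
J-partner between the arcs ending at the single end and at a double end of a network.
-/

open Set Filter Topology Metric

noncomputable section

namespace Vale.Agent.P032.H946

open Vale.Agent.P032.Six Vale.Agent.P032.S5.H767 Vale.Agent.P032.S5.H349 Vale.Agent.P032.S5.H450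
open Vale.Agent.P032.S5.H358 Vale.Agent.P032.H597 Vale.Agent.P032.H471

variable {U : Fin 6 → Set ℂ} {T : ℂ → Set (Fin 6)}

/-- **no J-arc** -/
theorem jarc_dead (h : Irr U T) (hS : Sec4 T)
    (N : JNet T (EE T) (Jp T) (Prs T) (ore T) (inn U T)) {M y V q q' : ℂ}
    (hJ : JArc T (EE T) (Jp T) (Prs T) (ore T) (inn U T) M y V q q')
    (h22 : ∀ {z v v' x x'}, EE T z v → EE T z v' → EE T z x → EE T z x' → T v' = T v →
      T x = (T v)ᶜ → T x' = (T v)ᶜ → v ≠ v' → x ≠ x' → False) : False := by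
  have hw := N.rh hJ.eV hJ.eq hJ.Tq
  have cA : Comp T (EE T) (V + q - M) := ⟨V, q, hw.1, hw.2, hJ.Tq⟩
  refine jarc_false h hS N hJ (fun m hm => ?_) (fun h1 h2 h3 h4 => h22 h1 h2 h3 h4)
  by_contra hcon
  have hT : T m = T (V + q - M) := N.w0 (Or.inl cA) hm (by omega)
  obtain ⟨a, b, c, d, h1, h2⟩ := hw.1.names
  have hD := hw.1.dpt h h1 h2
  have hTp : Tp T m := by
    rcases H987.cross987 h hD hm hT with k | k
    · exact ⟨_, _, _, _, k⟩
    · exact ⟨_, _, _, _, k⟩
  exact hJ.not_two N (N.one cA (y := m) ⟨⟨_, _, _, _, hD⟩, hTp, hm, hT⟩)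

end Vale.Agent.P032.H946
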