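import Vale.Agent.P032.H946.JTwo3

/-!
# P032: the centre over a J-arc, if its circle is clean

`JArc.sideA` : `M` with two J-partners, `A = V + q - M` the centre over the J-arc; if the ends of
`S(A)` satisfy `L2`, `L3` and there is no `(2,2)` network at `A`, then `q` is the only end of its type
at `A`, there is a second end of the type of `V`, and the inner colour of `M` at `q` is a colour of `A`.
-/

open Complex

set_option linter.dupNamespace false

namespace Vale.Agent.P032.H946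

open Net.H672 (dt dt_comm dt_neg_left dt_neg_right dt_self)

variable {T : ℂ → Set (Fin 6)} {E J : ℂ → ℂ → Prop} {Pr : ℂ → Set (Fin 6) → Prop}
  {o : ℂ → ℂ → ℝ} {inn : ℂ → ℂ → Fin 6}

/-- linear independence -/
theorem dt_indep {a b : ℂ} (h : dt a b ≠ 0) {x z : ℝ} (hxz : (x : ℂ) * b + (z : ℂ) * a = 0) :
    x = 0 ∧ z = 0 := by
  have r1 := congrArg Complex.re hxz
  have r2 := congrArg Complex.im hxz
  simp only [Complex.add_re, Complex.add_im, Complex.re_ofReal_mul, Complex.im_ofReal_mul,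
    Complex.zero_re, Complex.zero_im] at r1 r2
  have x0 : x * dt a b = 0 := by
    unfold dt
    linear_combination a.re * r2 - a.im * r1
  have z0 : z * dt a b = 0 := by
    unfold dt
    linear_combination -b.re * r2 + b.im * r1
  exact ⟨(mul_eq_zero.1 x0).resolve_right h, (mul_eq_zero.1 z0).resolve_right h⟩

theorem JArc.dt_ne (N : JNet T E J Pr o inn) {M y V q q' : ℂ}
    (h : JArc T E J Pr o inn M y V q q') : dt (q - M) (V - M) ≠ 0 := by
  intro h0
  have hd := h.dt_pos N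
  rw [h0, mul_zero] at hd
  exact lt_irrefl _ hd

/-- at most three centres at a vertex: a fourth one is one of three different ones -/
theorem JNet.fourth (N : JNet T E J Pr o inn) {v c₁ c₂ c₃ c : ℂ} (h1 : E c₁ v) (h2 : E c₂ v)
    (h3 : E c₃ v) (h : E c v) (h12 : c₁ ≠ c₂) (h13 : c₁ ≠ c₃) (h23 : c₂ ≠ c₃) :
    c = c₁ ∨ c = c₂ ∨ c = c₃ := by
  obtain ⟨i1, m1, n1, -⟩ := exists_miss (N.card_v h1) (N.card_i h1)
  obtain ⟨i2, m2, n2, -⟩ := exists_miss (N.card_v h2) (N.card_i h2)
  obtain ⟨i3, m3, n3, -⟩ := exists_miss (N.card_v h3) (N.card_i h3)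
  obtain ⟨i, m, n, -⟩ := exists_miss (N.card_v h) (N.card_i h)
  have d12 : i1 ≠ i2 := by rintro rfl; exact h12 (N.uniq h1 h2 m1 n1 n2)
  have d13 : i1 ≠ i3 := by rintro rfl; exact h13 (N.uniq h1 h3 m1 n1 n3)
  have d23 : i2 ≠ i3 := by rintro rfl; exact h23 (N.uniq h2 h3 m2 n2 n3)
  obtain ⟨k, -, -, -, hk⟩ := exists_third (N.card_v h1) m1 m2 d12
  have hk3 : k = i3 := by
    rcases hk i3 m3 with r | r | r
    · exact absurd r.symm d13
    · exact absurd r.symm d23
    · exact r.symm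
  rcases hk i m with rfl | rfl | rfl
  · exact Or.inl (N.uniq h h1 m n n1)
  · exact Or.inr (Or.inl (N.uniq h h2 m n n2))
  · exact Or.inr (Or.inr (N.uniq h h3 m n (hk3 ▸ n3)))

/-- **the centre over a J-arc** -/
theorem JArc.sideA (N : JNet T E J Pr o inn) {M y V q q' : ℂ}
    (h : JArc T E J Pr o inn M y V q q')
    (hL2 : (∃ v', v' ≠ V ∧ E (V + q - M) v' ∧ T v' = T V) ∨
      ∃ p, p ≠ q ∧ E (V + q - M) p ∧ T p = T q)
    (hL3 : ∀ {v x x'}, E (V + q - M) v → E (V + q - M) x → E (V + q - M) x' → T x = (T v)ᶜ →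
      T x' = (T v)ᶜ → x ≠ x' → (∀ v', E (V + q - M) v' → T v' = T v → v' = v) →
      ∃ α β γ : ℝ, 0 < α ∧ 0 < β ∧ 0 < γ ∧ (α : ℂ) * (v - (V + q - M)) +
        (β : ℂ) * (x - (V + q - M)) + (γ : ℂ) * (x' - (V + q - M)) = 0)
    (h22 : ∀ {v v' x x'}, E (V + q - M) v → E (V + q - M) v' → E (V + q - M) x →
      E (V + q - M) x' → T v' = T v → T x = (T v)ᶜ → T x' = (T v)ᶜ → v ≠ v' → x ≠ x' → False) :
    (∀ p, E (V + q - M) p → T p = T q → p = q) ∧
      (∃ V', V' ≠ V ∧ E (V + q - M) V' ∧ T V' = T V) ∧ inn M q ∈ T (V + q - M) := by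
  have hw := N.rh h.eV h.eq h.Tq
  have hw' := N.rh h.eV h.eq' h.Tq'
  have hdt := h.dt_ne N
  have hTV : T V = (T q)ᶜ := by rw [h.Tq, compl_compl]
  obtain ⟨a, b, ha, hb, hc⟩ := N.two_cone h.two h.eq h.eq' (by rw [h.Tq, h.Tq']) h.ne h.eV hTV
  have nM : V + q - M ≠ M := fun h0 => N.anti h.eV h.eq h.Tq (by linear_combination h0)
  have nM' : V + q' - M ≠ M := fun h0 => N.anti h.eV h.eq' h.Tq' (by linear_combination h0)
  have nAB : V + q - M ≠ V + q' - M := fun h0 => h.ne (by linear_combination h0)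
  -- the only end of the type of `q`
  have h1 : ∀ p, E (V + q - M) p → T p = T q → p = q := by
    intro p hp hTp
    by_contra hne
    have hTp' : T p = (T V)ᶜ := by rw [hTp, h.Tq]
    have hr := N.rh hw.1 hp hTp'
    have hp' : p - (V + q - M) = q' - M := by
      rcases N.fourth h.eV hw.1 hw'.1 hr.1 nM.symm nM'.symm nAB with k | k | k
      · exact absurd (by linear_combination k) hne
      · exact absurd (by linear_combination k) (N.anti hw.1 hp hTp')
      · linear_combination k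
    obtain ⟨α, β, γ, hα, hβ, hγ, k⟩ := hL3 hw.1 hw.2 hp h.Tq hTp' (Ne.symm hne)
      (fun v' hv' hTv' => by
        by_contra hne'
        exact h22 hw.1 hv' hw.2 hp hTv' h.Tq hTp' (Ne.symm hne') (Ne.symm hne))
    rw [hp'] at k
    have hb' : (b : ℂ) ≠ 0 := by exact_mod_cast hb.ne'
    have hq' : q' - M = ((1 / b : ℝ) : ℂ) * (V - M) + ((-(a / b) : ℝ) : ℂ) * (q - M) := by
      push_cast
      field_simp
      linear_combination -hc
    rw [hq'] at k
    have k2 : ((γ * (1 / b) - β : ℝ) : ℂ) * (V - M) + ((-(γ * (a / b)) - α : ℝ) : ℂ) * (q - M) = 0 := by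
      push_cast at k ⊢
      linear_combination k
    have k3 := (dt_indep hdt k2).2
    have : 0 < γ * (a / b) := by positivity
    linarith
  refine ⟨h1, ?_⟩
  have h2 : ∃ V', V' ≠ V ∧ E (V + q - M) V' ∧ T V' = T V := by
    rcases hL2 with k | ⟨p, k1, k2, k3⟩
    · exact k
    · exact absurd (h1 p k2 k3) k1
  refine ⟨h2, ?_⟩
  obtain ⟨V', n', e', t'⟩ := h2
  have t'' : T V' = (T q)ᶜ := by rw [t', hTV]
  obtain ⟨α, β, γ, hα, hβ, hγ, k⟩ := hL3 hw.2 hw.1 e' hTV t'' n'.symm h1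
  have hγ' : (γ : ℂ) ≠ 0 := by exact_mod_cast hγ.ne'
  have k1 : V' - (V + q - M) = ((α / γ : ℝ) : ℂ) * (V - M) + ((β / γ : ℝ) : ℂ) * (q - M) := by
    push_cast
    field_simp
    linear_combination k
  have hr := N.rh hw.2 e' t''
  obtain ⟨x, z, hx, hz, k2⟩ := N.LP3 hw.2 hw.1 hTV hr.1 hr.2 t''
    (fun h0 => N.anti hw.2 e' t'' (by linear_combination h0))
    (fun h0 => n' (by linear_combination h0))
  rw [show q + V - (V + q - M) = M by ring, show q + V' - (V + q - M) - q = V' - (V + q - M) by ring,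
    show V + q - M - q = V - M by ring, show V - (V + q - M) = -(q - M) by ring, k1] at k2
  have k3 : ((o (q + V' - (V + q - M)) q * (α / γ) + x * o (V + q - M) q : ℝ) : ℂ) * (V - M) +
      ((o (q + V' - (V + q - M)) q * (β / γ) - z * o M q : ℝ) : ℂ) * (q - M) = 0 := by
    push_cast at k2 ⊢
    linear_combination k2
  obtain ⟨k4, k5⟩ := dt_indep hdt k3
  rw [h.innq N]
  have hoq := N.two_ori h.two h.eV h.eq h.Tq
  have p1 : 0 < α / γ := by positivity
  have p2 : 0 < β / γ := by positivity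
  have i1 := N.ori hw.2
  have i2 := N.ori h.eV
  have i3 := N.ori hr.1
  rw [hoq] at k5
  have i3' := i3
  have key1 : o (V + q - M) q = - o (q + V' - (V + q - M)) q := by
    rcases i1 with e1 | e1 <;> rcases i3 with e3 | e3 <;> rw [e1, e3] at k4 ⊢ <;> nlinarith
  have key2 : o M V = - o (q + V' - (V + q - M)) q := by
    rcases i2 with e1 | e1 <;> rcases i3' with e3 | e3 <;> rw [e1, e3] at k5 ⊢ <;> nlinarith
  rw [key1, key2]

end Vale.Agent.P032.H946
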