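import Vale.Agent.P032.H471.Jnet
import Vale.Agent.P032.H597.W3
import Vale.Agent.P032.H594.JZero
import Vale.Agent.P032.H946.JSide

/-!
# P032: the centre over a J-arc is not clean

(5b) of the text of 838.  `geo946` : a clean two-pair centre `A` (pairs `df | be`, free colours
`a, c`) with one `dfc`-point `q` and two `bea`-points `V, V'` has no point `y` with `V, q` inside the
unit disc about `y` and `a, c` at both common points of `S(A)` and `S(y)`.
-/

open Set Filter Topology Metric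

noncomputable section

namespace Vale.Agent.P032.H946

open Vale.Agent.P032.Six Vale.Agent.P032.S5.H767 Vale.Agent.P032.S5.H349 Vale.Agent.P032.S5.H450
open Vale.Agent.P032.S5.H358 Vale.Agent.P032.H597

variable {U : Fin 6 → Set ℂ} {T : ℂ → Set (Fin 6)}

/-- the closed arc -/
def KA (z v : ℂ) (o l : ℝ) : Set ℂ := (fun s : ℝ => z + (v - z) * cis (-(o * s))) '' Icc 0 l

theorem cont_arc (z v : ℂ) (o : ℝ) : Continuous fun s : ℝ => z + (v - z) * cis (-(o * s)) := by
  unfold cis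
  fun_prop

theorem KA_closed (z v : ℂ) (o l : ℝ) : IsClosed (KA z v o l) :=
  (isCompact_Icc.image (cont_arc z v o)).isClosed

/-- an exact arc as a closed arc -/
theorem AA.data {z v u : ℂ} (h : AA T z v u) : ∃ o l : ℝ, (o = 1 ∨ o = -1) ∧ 0 < l ∧
    l ≤ Real.pi / 3 ∧ u = z + (v - z) * cis (-(o * l)) ∧
    (∀ s ∈ Ioo 0 l, T (z + (v - z) * cis (-(o * s))) = T z ∩ T v) ∧
    ∀ y, Seg T z v u y → y ∈ KA z v o l := by
  obtain ⟨o, l, hl0, hl, h1, -, h3, h4⟩ := h
  refine ⟨o, l, h1.1, hl0, hl, h3, h4, ?_⟩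
  rintro y ⟨o', l', t, ht, htl, hl', k1, -, k3, k4, -⟩
  have hv : v - z ≠ 0 := by
    have := h1.2.1
    intro h0
    rw [dist_eq_norm, h0, norm_zero] at this
    exact zero_ne_one this
  have hcis : cis (-(o * l)) = cis (-(o' * l')) := by
    apply mul_left_cancel₀ hv
    have := h3.symm.trans k3
    linear_combination this
  have hsin : ∀ x : ℝ, (cis x).im = Real.sin x := fun x => by
    unfold cis; rw [Complex.exp_ofReal_mul_I_im]
  have hcos : ∀ x : ℝ, (cis x).re = Real.cos x := fun x => by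
    unfold cis; rw [Complex.exp_ofReal_mul_I_re]
  have hpi := Real.pi_pos
  have s1 := congrArg Complex.im hcis
  have s2 := congrArg Complex.re hcis
  rw [hsin, hsin, Real.sin_neg, Real.sin_neg] at s1
  rw [hcos, hcos, Real.cos_neg, Real.cos_neg] at s2
  have p1 : 0 < Real.sin l := Real.sin_pos_of_pos_of_lt_pi hl0 (by linarith)
  have p2 : 0 < Real.sin l' := Real.sin_pos_of_pos_of_lt_pi (by linarith) (by linarith)
  have inj : Real.cos l = Real.cos l' → l = l' := fun hh =>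
    Real.injOn_cos ⟨hl0.le, by linarith⟩ ⟨by linarith, by linarith⟩ hh
  have key : o' = o ∧ l' = l := by
    rcases h1.1 with rfl | rfl <;> rcases k1.1 with rfl | rfl
    · simp only [one_mul] at s2
      exact ⟨rfl, (inj s2).symm⟩
    · simp only [one_mul, neg_mul, Real.sin_neg] at s1
      linarith
    · simp only [one_mul, neg_mul, Real.sin_neg] at s1
      linarith
    · simp only [one_mul, neg_mul, Real.cos_neg] at s2
      exact ⟨rfl, (inj s2).symm⟩
  obtain ⟨rfl, rfl⟩ := key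
  exact ⟨t, ⟨ht.le, htl.le⟩, k4.symm⟩

/-- an arc with one point inside a disc and no point on its boundary is inside -/
theorem arc_inside {z v y : ℂ} {o l : ℝ} (h0 : dist v y < 1)
    (hne : ∀ x ∈ KA z v o l, dist x y ≠ 1) : ∀ x ∈ KA z v o l, dist x y < 1 := by
  rintro x ⟨s, hs, rfl⟩
  by_contra hcon
  push Not at hcon
  have hc : ContinuousOn (fun s : ℝ => dist (z + (v - z) * cis (-(o * s))) y) (Icc 0 s) :=
    ((cont_arc z v o).dist continuous_const).continuousOn
  have h00 : dist (z + (v - z) * cis (-(o * 0))) y < 1 := by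
    have : cis (-(o * 0)) = 1 := by unfold cis; simp
    rw [this, mul_one, add_sub_cancel]
    exact h0
  obtain ⟨r, hr, hr'⟩ := intermediate_value_Icc hs.1 hc ⟨h00.le, hcon⟩
  exact hne _ ⟨r, ⟨hr.1, hr.2.trans hs.2⟩, rfl⟩ hr'

/-- two points of an arc of length at most `π/3` -/
theorem arc_dist_le {z v : ℂ} {o l : ℝ} (ho : o = 1 ∨ o = -1) (hv : dist v z = 1)
    (hl : l ≤ Real.pi / 3) {x x' : ℂ} (hx : x ∈ KA z v o l) (hx' : x' ∈ KA z v o l) :
    dist x x' ≤ 1 := by
  obtain ⟨s, hs, rfl⟩ := hx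
  obtain ⟨s', hs', rfl⟩ := hx'
  have hn : ‖v - z‖ = 1 := by rw [← dist_eq_norm]; exact hv
  have e1 : z + (v - z) * cis (-(o * s)) - (z + (v - z) * cis (-(o * s'))) =
      (v - z) * (cis (-(o * s)) - cis (-(o * s'))) := by ring
  show dist (z + (v - z) * cis (-(o * s))) (z + (v - z) * cis (-(o * s'))) ≤ 1
  rw [dist_eq_norm, e1, norm_mul, hn, one_mul]
  have hpi := Real.pi_pos
  have h1 : Complex.normSq (cis (-(o * s)) - cis (-(o * s'))) ≤ 1 := by
    rw [Complex.normSq_apply]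
    simp only [Complex.sub_re, Complex.sub_im, cis, Complex.exp_ofReal_mul_I_re,
      Complex.exp_ofReal_mul_I_im]
    have h2 : 1 / 2 ≤ Real.cos (-(o * s) - -(o * s')) := by
      have h3 : Real.cos (-(o * s) - -(o * s')) = Real.cos |s - s'| := by
        rw [Real.cos_abs]
        rcases ho with rfl | rfl
        · rw [← Real.cos_neg]; congr 1; ring
        · congr 1; ring
      rw [h3, ← Real.cos_pi_div_three]
      refine Real.cos_le_cos_of_nonneg_of_le_pi (abs_nonneg _) (by linarith) ?_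
      rw [abs_le]
      constructor <;> linarith [hs.1, hs.2, hs'.1, hs'.2]
    rw [Real.cos_sub] at h2
    nlinarith [Real.sin_sq_add_cos_sq (-(o * s)), Real.sin_sq_add_cos_sq (-(o * s'))]
  rw [← Complex.sq_norm] at h1
  have h2 := norm_nonneg (cis (-(o * s)) - cis (-(o * s')))
  nlinarith

/-- the two common points of two circles and their outer neighbours -/
theorem exists_outer {A y : ℂ} (hne : A ≠ y) (h2 : dist A y < 2) :
    ∃ p p' p1 p1' : ℂ, dist p A = 1 ∧ dist p y = 1 ∧ dist p' A = 1 ∧ dist p' y = 1 ∧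
      A + y ≠ 2 * p ∧ A + y ≠ 2 * p' ∧
      dist p1 A = 1 ∧ dist p1' A = 1 ∧ dist p p1 = 1 ∧ dist p' p1' = 1 ∧
      1 < dist p1 y ∧ 1 < dist p1' y ∧ 1 < dist p1 p1' := by
  set d := y - A with hd
  have hd0 : d ≠ 0 := sub_ne_zero.2 hne.symm
  have hn0 : 0 < Complex.normSq d := Complex.normSq_pos.2 hd0
  have hn4 : Complex.normSq d < 4 := by
    rw [← Complex.sq_norm]
    rw [dist_comm, dist_eq_norm] at h2
    have := norm_nonneg d
    nlinarith
  set s := Real.sqrt (1 / Complex.normSq d - 1 / 4) with hs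
  have hpos : 0 < 1 / Complex.normSq d - 1 / 4 := by
    rw [sub_pos]
    exact one_div_lt_one_div_of_lt hn0 hn4
  have hs0 : 0 < s := Real.sqrt_pos.2 hpos
  have hs2 : s ^ 2 = 1 / Complex.normSq d - 1 / 4 := Real.sq_sqrt hpos.le
  have hnd : Complex.normSq d * (1 / 4 + s ^ 2) = 1 := by
    rw [hs2]; field_simp; ring
  set r := Real.sqrt 3 with hr
  have hr0 : 0 < r := Real.sqrt_pos.2 (by norm_num)
  have hr2 : r ^ 2 = 3 := Real.sq_sqrt (by norm_num)
  -- norms
  have key : ∀ e1 e2 : ℝ, e1 ^ 2 + e2 ^ 2 = 1 / 4 + s ^ 2 →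
      ‖d * ((e1 : ℂ) + (e2 : ℂ) * Complex.I)‖ = 1 := by
    intro e1 e2 h1
    have : Complex.normSq (d * ((e1 : ℂ) + (e2 : ℂ) * Complex.I)) = 1 := by
      rw [map_mul, Complex.normSq_add_mul_I, h1, hnd]
    rw [← Complex.sq_norm] at this
    have h3 := norm_nonneg (d * ((e1 : ℂ) + (e2 : ℂ) * Complex.I))
    nlinarith
  have key2 : ∀ e1 e2 : ℝ, 1 / 4 + s ^ 2 < e1 ^ 2 + e2 ^ 2 →
      1 < ‖d * ((e1 : ℂ) + (e2 : ℂ) * Complex.I)‖ := by
    intro e1 e2 h1
    have : 1 < Complex.normSq (d * ((e1 : ℂ) + (e2 : ℂ) * Complex.I)) := by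
      rw [map_mul, Complex.normSq_add_mul_I, ← hnd]
      exact mul_lt_mul_of_pos_left h1 hn0
    rw [← Complex.sq_norm] at this
    have h3 := norm_nonneg (d * ((e1 : ℂ) + (e2 : ℂ) * Complex.I))
    nlinarith
  have hI : d * ((s : ℂ) * Complex.I) ≠ 0 := by
    refine mul_ne_zero hd0 (mul_ne_zero ?_ Complex.I_ne_zero)
    exact_mod_cast hs0.ne'
  have hy : y = A + d := by rw [hd]; ring
  -- the points: `w ω`, `ω = 1/2 + r/2 i`, `w = d (1/2 + s i)`
  refine ⟨A + d * (((1 / 2 : ℝ) : ℂ) + (s : ℂ) * Complex.I),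
    A + d * (((1 / 2 : ℝ) : ℂ) + ((-s : ℝ) : ℂ) * Complex.I),
    A + d * (((1 / 4 - s * r / 2 : ℝ) : ℂ) + ((r / 4 + s / 2 : ℝ) : ℂ) * Complex.I),
    A + d * (((1 / 4 - s * r / 2 : ℝ) : ℂ) + ((-(r / 4 + s / 2) : ℝ) : ℂ) * Complex.I),
    ?_, ?_, ?_, ?_, ?_, ?_, ?_, ?_, ?_, ?_, ?_, ?_, ?_⟩
  · rw [dist_eq_norm, add_sub_cancel_left]
    exact key _ _ (by ring)
  · rw [dist_eq_norm, show A + d * (((1 / 2 : ℝ) : ℂ) + (s : ℂ) * Complex.I) - y =
      d * (((-1 / 2 : ℝ) : ℂ) + (s : ℂ) * Complex.I) by push_cast; rw [hy]; ring]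
    exact key _ _ (by ring)
  · rw [dist_eq_norm, add_sub_cancel_left]
    exact key _ _ (by ring)
  · rw [dist_eq_norm, show A + d * (((1 / 2 : ℝ) : ℂ) + ((-s : ℝ) : ℂ) * Complex.I) - y =
      d * (((-1 / 2 : ℝ) : ℂ) + ((-s : ℝ) : ℂ) * Complex.I) by push_cast; rw [hy]; ring]
    exact key _ _ (by ring)
  · intro h
    apply hI
    push_cast at h
    rw [hy] at h
    linear_combination -h / 2
  · intro h
    apply hI
    push_cast at h
    rw [hy] at h
    linear_combination h / 2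
  · rw [dist_eq_norm, add_sub_cancel_left]
    exact key _ _ (by nlinarith)
  · rw [dist_eq_norm, add_sub_cancel_left]
    exact key _ _ (by nlinarith)
  · rw [dist_eq_norm, show A + d * (((1 / 2 : ℝ) : ℂ) + (s : ℂ) * Complex.I) -
      (A + d * (((1 / 4 - s * r / 2 : ℝ) : ℂ) + ((r / 4 + s / 2 : ℝ) : ℂ) * Complex.I)) =
      d * (((1 / 4 + s * r / 2 : ℝ) : ℂ) + ((s / 2 - r / 4 : ℝ) : ℂ) * Complex.I) by
        push_cast; ring]
    exact key _ _ (by nlinarith)
  · rw [dist_eq_norm, show A + d * (((1 / 2 : ℝ) : ℂ) + ((-s : ℝ) : ℂ) * Complex.I) -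
      (A + d * (((1 / 4 - s * r / 2 : ℝ) : ℂ) + ((-(r / 4 + s / 2) : ℝ) : ℂ) * Complex.I)) =
      d * (((1 / 4 + s * r / 2 : ℝ) : ℂ) + ((-(s / 2 - r / 4) : ℝ) : ℂ) * Complex.I) by
        push_cast; ring]
    exact key _ _ (by nlinarith)
  · rw [dist_eq_norm, show A + d * (((1 / 4 - s * r / 2 : ℝ) : ℂ) +
      ((r / 4 + s / 2 : ℝ) : ℂ) * Complex.I) - y =
      d * (((-(3 / 4) - s * r / 2 : ℝ) : ℂ) + ((r / 4 + s / 2 : ℝ) : ℂ) * Complex.I) by
        push_cast; rw [hy]; ring]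
    refine key2 _ _ ?_
    have : 0 < s * r := by positivity
    nlinarith
  · rw [dist_eq_norm, show A + d * (((1 / 4 - s * r / 2 : ℝ) : ℂ) +
      ((-(r / 4 + s / 2) : ℝ) : ℂ) * Complex.I) - y =
      d * (((-(3 / 4) - s * r / 2 : ℝ) : ℂ) + ((-(r / 4 + s / 2) : ℝ) : ℂ) * Complex.I) by
        push_cast; rw [hy]; ring]
    refine key2 _ _ ?_
    have : 0 < s * r := by positivity
    nlinarith
  · rw [dist_eq_norm, show A + d * (((1 / 4 - s * r / 2 : ℝ) : ℂ) +
      ((r / 4 + s / 2 : ℝ) : ℂ) * Complex.I) - (A + d * (((1 / 4 - s * r / 2 : ℝ) : ℂ) +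
      ((-(r / 4 + s / 2) : ℝ) : ℂ) * Complex.I)) =
      d * (((0 : ℝ) : ℂ) + ((r / 2 + s : ℝ) : ℂ) * Complex.I) by push_cast; ring]
    refine key2 _ _ ?_
    have : 0 < s * r := by positivity
    nlinarith

/-- **(5b)** -/
theorem geo946 (h : Irr U T) {A y q V V' : ℂ} {a b c d e f : Fin 6} (hA : DPt T A d f b e)
    (nd : [d, f, b, e, c, a].Nodup) (hcl : ∀ m, dist m A = 1 → (T m).ncard ≤ 3)
    (dq : dist q A = 1) (Tq : T q = {d, f, c}) (dV : dist V A = 1) (TV : T V = {b, e, a})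
    (hop : q + V ≠ 2 * A) (dV' : dist V' A = 1) (TV' : T V' = {b, e, a}) (hne : V ≠ V')
    (hun : ∀ v', dist v' A = 1 → T v' = {d, f, c} → v' = q) (hAy : A ≠ y) (hAy2 : dist A y < 2)
    (hqy : dist q y < 1) (hVy : dist V y < 1)
    (hcom : ∀ m, dist m y = 1 → dist m A = 1 → A + y ≠ 2 * m → a ∈ T m ∧ c ∈ T m) : False := by
  obtain ⟨⟨df, db, de, dc, da⟩, ⟨fb, fe, fc, fa⟩, ⟨be, bc, ba⟩, ⟨ec, ea⟩, ca⟩ := nd_ne nd
  have C := ctr_of_dpt h hA nd
  obtain ⟨u, r, r', Tu, Tr, Tr', -, aa1, aa2, aa3, -, -, -, hE1, hE2⟩ :=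
    w3 h hA nd hcl dq Tq dV TV hop dV' TV' hne hun
  obtain ⟨o1, l1, ho1, hl1, hl1', eu, hT1, hK1⟩ := AA.data aa1
  obtain ⟨o2, l2, ho2, hl2, hl2', er, hT2, hK2⟩ := AA.data aa2
  obtain ⟨o3, l3, ho3, hl3, hl3', -, -, hK3⟩ := AA.data aa3
  have aA : a ∉ T A := by
    rw [hA.pal]
    simp only [mem_insert_iff, mem_singleton_iff, not_or]
    exact ⟨da.symm, fa.symm, ba.symm, ea.symm⟩
  have cA : c ∉ T A := by
    rw [hA.pal]
    simp only [mem_insert_iff, mem_singleton_iff, not_or]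
    exact ⟨dc.symm, fc.symm, bc.symm, ec.symm⟩
  have hmid : ∀ m, dist m A = 1 → A + y ≠ 2 * m := by
    intro m hm h0
    have : dist A y = 2 := by
      rw [dist_eq_norm, show A - y = 2 * (A - m) by linear_combination -h0, norm_mul,
        ← dist_eq_norm, dist_comm, hm]
      norm_num
    linarith
  have dK : ∀ {v : ℂ} {o l : ℝ}, dist v A = 1 → ∀ x ∈ KA A v o l, dist x A = 1 := by
    rintro v o l hv x ⟨s, -, rfl⟩
    show dist (A + (v - A) * cis (-(o * s))) A = 1
    rw [dist_eq_norm, add_sub_cancel_left, norm_mul, ← dist_eq_norm, hv, one_mul]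
    unfold cis
    exact Complex.norm_exp_ofReal_mul_I _
  have split : ∀ {v : ℂ} {o l : ℝ}, 0 < l → ∀ x ∈ KA A v o l,
      x = v ∨ x = A + (v - A) * cis (-(o * l)) ∨
        ∃ s ∈ Ioo 0 l, x = A + (v - A) * cis (-(o * s)) := by
    rintro v o l hl x ⟨s, hs, rfl⟩
    rcases hs.1.eq_or_lt with h0 | h0
    · left
      rw [← h0]
      show A + (v - A) * cis (-(o * 0)) = v
      have : cis (-(o * 0)) = 1 := by unfold cis; simp
      rw [this, mul_one, add_sub_cancel]
    rcases hs.2.eq_or_lt with h1 | h1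
    · right; left
      rw [← h1]
    · right; right
      exact ⟨s, ⟨h0, h1⟩, rfl⟩
  have in1 : ∀ x ∈ KA A q o1 l1, dist x y < 1 := by
    refine arc_inside hqy fun x hx h1 => ?_
    have hc := hcom x h1 (dK dq x hx) (hmid x (dK dq x hx))
    rcases split hl1 x hx with rfl | rfl | ⟨s, hs, rfl⟩
    · linarith
    · rw [← eu, Tu] at hc
      rcases hc.2 with k | k | k
      exacts [dc k.symm, fc k.symm, ca k]
    · rw [hT1 s hs] at hc
      exact cA hc.2.1
  have in2 : ∀ x ∈ KA A V o2 l2, dist x y < 1 := by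
    refine arc_inside hVy fun x hx h1 => ?_
    have hc := hcom x h1 (dK dV x hx) (hmid x (dK dV x hx))
    rcases split hl2 x hx with rfl | rfl | ⟨s, hs, rfl⟩
    · linarith
    · rw [← er, Tr] at hc
      rcases hc.1 with k | k | k
      exacts [ba k.symm, ea k.symm, ca k.symm]
    · rw [hT2 s hs] at hc
      exact aA hc.1.1
  obtain ⟨p, p', p1, p1', e1, e2, e3, e4, e5, e6, e7, e8, e9, e10, e11, e12, e13⟩ :=
    exists_outer hAy hAy2
  have key : ∀ m m', dist m A = 1 → dist m y = 1 → A + y ≠ 2 * m → dist m' A = 1 →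
      dist m m' = 1 → 1 < dist m' y → m' ∈ KA A V' o3 l3 := by
    intro m m' k1 k2 k3 k4 k5 k6
    have hc := hcom m k2 k1 k3
    rcases ef_change C k1 k4 k5 (hcl m k1) (hcl m' k4) hc.2 hc.1 with k | k
    · have : m' ∈ KA A q o1 l1 :=
        closure_minimal (fun x hx => hK1 x (hE1 x hx)) (KA_closed _ _ _ _) k
      linarith [in1 m' this]
    · have : m' ∈ KA A V o2 l2 ∪ KA A V' o3 l3 := by
        refine closure_minimal (fun x hx => ?_)
          ((KA_closed A V o2 l2).union (KA_closed A V' o3 l3)) k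
        rcases hE2 x hx with k' | k'
        · exact Or.inl (hK2 x k')
        · exact Or.inr (hK3 x k')
      rcases this with k' | k'
      · linarith [in2 m' k']
      · exact k'
  have m1 := key p p1 e1 e2 e5 e7 e9 e11
  have m2 := key p' p1' e3 e4 e6 e8 e10 e12
  have := arc_dist_le ho3 dV' hl3' m1 m2
  linarith

/-! ## the frame -/

open Vale.Agent.P032.H471 Vale.Agent.P032.H594

theorem norm_exp_sub_one_le {t : ℝ} (h0 : 0 < t) (h1 : t ≤ Real.pi / 3) {s : ℝ}
    (hs : s = 1 ∨ s = -1) : ‖Complex.exp (((s * t : ℝ) : ℂ) * Complex.I) - 1‖ ≤ 1 := by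
  have hpi := Real.pi_pos
  have h2 : Complex.normSq (Complex.exp (((s * t : ℝ) : ℂ) * Complex.I) - 1) ≤ 1 := by
    rw [Complex.normSq_apply]
    simp only [Complex.sub_re, Complex.sub_im, Complex.exp_ofReal_mul_I_re,
      Complex.exp_ofReal_mul_I_im, Complex.one_re, Complex.one_im]
    have h3 : 1 / 2 ≤ Real.cos (s * t) := by
      have h4 : Real.cos (s * t) = Real.cos t := by
        rcases hs with rfl | rfl
        · rw [one_mul]
        · rw [neg_one_mul, Real.cos_neg]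
      rw [h4, ← Real.cos_pi_div_three]
      exact Real.cos_le_cos_of_nonneg_of_le_pi h0.le (by linarith) h1
    nlinarith [Real.sin_sq_add_cos_sq (s * t)]
  rw [← Complex.sq_norm] at h2
  have := norm_nonneg (Complex.exp (((s * t : ℝ) : ℂ) * Complex.I) - 1)
  nlinarith

/-- both free colours of `w` at a common point (from 471's (UB)) -/
theorem ub_mem (h : Irr U T) {z w m : ℂ} {s t s' t' e e' : Fin 6}
    (hD : DPt T z s t s' t') (hmz : dist m z = 1) (hmw : dist m w = 1) (h1 : w ≠ z)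
    (h2 : w + z ≠ 2 * m) (hnd : [s, t, s', t', e, e'].Nodup)
    (hw : T w = {s, t, e, e'}) (hm : (T m).ncard ≤ 3)
    (hpz : TwoPairs T z {s, t} {s', t'}) (hpw : TwoPairs T w {s, e} {t, e'}) :
    s' ∈ T m ∧ t' ∈ T m := by
  obtain ⟨j, j', hj, -, τ, -, -, k1, k2⟩ :=
    Irr.ub471 h hD hmz hmw h1 h2 hnd hw hm hpz hpw
  have hsub : ∀ τ : ℝ, ∀ᶠ t in 𝓝[>] (0 : ℝ), T (hbr w m τ t) ⊆ T m := fun τ =>
    (tendsto_hbr w m τ).eventually (h.nhd m)
  obtain ⟨x, ⟨a1, -⟩, a2⟩ := (k1.and (hsub τ)).exists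
  obtain ⟨x', ⟨b1, -⟩, b2⟩ := (k2.and (hsub (-τ))).exists
  rcases hj with ⟨rfl, rfl⟩ | ⟨rfl, rfl⟩
  · exact ⟨b2 b1, a2 a1⟩
  · exact ⟨a2 a1, b2 b1⟩

/-- `L2` and `L3` at a clean centre over a J-arc -/
theorem clean_L (h : Irr U T) (hS : Sec4 T)
    (N : JNet T (EE T) (Jp T) (Prs T) (ore T) (inn U T)) {M y V q q' : ℂ}
    (hJ : JArc T (EE T) (Jp T) (Prs T) (ore T) (inn U T) M y V q q')
    (hcl : ∀ m, dist m (V + q - M) = 1 → (T m).ncard ≤ 3) :
    ((∃ v', v' ≠ V ∧ EE T (V + q - M) v' ∧ T v' = T V) ∨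
      ∃ p, p ≠ q ∧ EE T (V + q - M) p ∧ T p = T q) ∧
    ∀ {v x x'}, EE T (V + q - M) v → EE T (V + q - M) x → EE T (V + q - M) x' →
      T x = (T v)ᶜ → T x' = (T v)ᶜ → x ≠ x' →
      (∀ v', EE T (V + q - M) v' → T v' = T v → v' = v) →
      ∃ α β γ : ℝ, 0 < α ∧ 0 < β ∧ 0 < γ ∧ (α : ℂ) * (v - (V + q - M)) +
        (β : ℂ) * (x - (V + q - M)) + (γ : ℂ) * (x' - (V + q - M)) = 0 := by
  have hw := N.rh hJ.eV hJ.eq hJ.Tq
  have hTV : T V = (T q)ᶜ := by rw [hJ.Tq, compl_compl]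
  have hK : OkC U T (V + q - M) := okC_of_clean hcl
  -- `L2`, `L3` at the clean centre
  have back : ∀ {v x p}, EE T (V + q - M) v → EE T (V + q - M) x → T x = (T v)ᶜ →
      En T (T v) (V + q - M) p → EE T (V + q - M) p ∧ T p = T v := fun hv hx hc hp =>
    ⟨hp.ee hv.card_v (hv.arc_compl rfl), hp.1⟩
  have cc : ∀ {v x : ℂ}, T x = (T v)ᶜ → T v = (T x)ᶜ := fun hc => by rw [hc, compl_compl]
  have hcln : ∀ {v x}, EE T (V + q - M) v → EE T (V + q - M) x → T x = (T v)ᶜ →
      ∀ m, dist m (V + q - M) = 1 → T m = T v ∨ T m = (T v)ᶜ → Cln T (V + q - M) m := by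
    rintro v x hv hx hc m hm (h5 | h5)
    · exact cln594 h hS hv hx hc hm h5
    · exact cln594 h hS hx hv (cc hc) hm (h5.trans hc.symm)
  have hL3 : ∀ {v x x'}, EE T (V + q - M) v → EE T (V + q - M) x → EE T (V + q - M) x' →
      T x = (T v)ᶜ → T x' = (T v)ᶜ → x ≠ x' →
      (∀ v', EE T (V + q - M) v' → T v' = T v → v' = v) →
      ∃ α β γ : ℝ, 0 < α ∧ 0 < β ∧ 0 < γ ∧ (α : ℂ) * (v - (V + q - M)) +
        (β : ℂ) * (x - (V + q - M)) + (γ : ℂ) * (x' - (V + q - M)) = 0 := by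
    intro v x x' hv hx hx' hc hc' hne hu
    refine L3_ok h hv.card_v hK (hv.pairs h rfl) (hcln hv hx hc) (hv.en rfl)
      (hx.en hc) (hx'.en hc') hne (fun v' h5 => ?_) (fun p h5 => ?_)
    · obtain ⟨k1, k2⟩ := back hv hx hc h5
      exact hu v' k1 k2
    · have h6 : En T (T x) (V + q - M) p := by rw [hc]; exact h5
      obtain ⟨k1, k2⟩ := back hx hv (cc hc) h6
      have r1 := N.rh hv hx hc
      have r2 := N.rh hv hx' hc'
      have r3 := N.rh hv k1 (k2.trans hc)
      rcases N.fourth hv r1.1 r2.1 r3.1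
        (fun h0 => N.anti hv hx hc (by linear_combination -h0))
        (fun h0 => N.anti hv hx' hc' (by linear_combination -h0))
        (fun h0 => hne (by linear_combination h0)) with k | k | k
      · exact absurd (by linear_combination k) (N.anti hv k1 (k2.trans hc))
      · left; linear_combination k
      · right; linear_combination k
  have hL2 : (∃ v', v' ≠ V ∧ EE T (V + q - M) v' ∧ T v' = T V) ∨
      ∃ p, p ≠ q ∧ EE T (V + q - M) p ∧ T p = T q := by
    rcases L2_ok h hw.1.card_v hK (hw.1.pairs h rfl) (hcln hw.1 hw.2 hJ.Tq) (hw.1.en rfl)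
      (hw.2.en hJ.Tq) with ⟨v', h5, h6⟩ | ⟨p, h5, h6⟩
    · exact Or.inl ⟨v', h5, back hw.1 hw.2 hJ.Tq h6⟩
    · refine Or.inr ⟨p, h5, ?_⟩
      have h7 : En T (T q) (V + q - M) p := by rw [hJ.Tq]; exact h6
      exact back hw.2 hw.1 hTV h7
  exact ⟨hL2, hL3⟩

/-- the colours at a J-arc whose double end has its inner colour in the centre over the arc -/
theorem jarc_colours (h : Irr U T)
    (N : JNet T (EE T) (Jp T) (Prs T) (ore T) (inn U T)) {M y V q q' : ℂ}
    (hJ : JArc T (EE T) (Jp T) (Prs T) (ore T) (inn U T) M y V q q')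
    (dA : inn U T M q ∈ T (V + q - M)) :
    ∃ a b c d e f : Fin 6, [d, f, b, e, c, a].Nodup ∧ T V = {b, e, a} ∧ T q = {d, f, c} ∧
      DPt T (V + q - M) d f b e ∧ DPt T y b d a c ∧ a ∈ T M ∧ a ∉ T (V + q - M) := by
  have hw := N.rh hJ.eV hJ.eq hJ.Tq
  have hTV : T V = (T q)ᶜ := by rw [hJ.Tq, compl_compl]
  -- the colours
  have hcov := N.cov hJ.eV hJ.eq hJ.Tq
  have aA := hJ.innV N
  obtain ⟨b, bV, bM, bn, ub⟩ := N.outer hJ.eV
  obtain ⟨c, cq, cM, cn, uc⟩ := N.outer hJ.eq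
  have aV := (N.inn_mem hJ.eV).1
  have aM := (N.inn_mem hJ.eV).2
  have dq := (N.inn_mem hJ.eq).1
  have dM := (N.inn_mem hJ.eq).2
  have hpr := hJ.pr c cq cM cn
  obtain ⟨e, eV, eM, ue⟩ := exists_miss (N.card_v hJ.eV) (N.card_i hJ.eV)
  obtain ⟨f, fq, fM, uf⟩ := exists_miss (N.card_v hJ.eq) (N.card_i hJ.eq)
  generalize ha : inn U T M V = a at *
  generalize hd : inn U T M q = d at *
  have eA : e ∈ T (V + q - M) := (hcov e).resolve_left eM
  have fA : f ∈ T (V + q - M) := (hcov f).resolve_left fM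
  have hVq : ∀ {i j}, i ∈ T V → j ∈ T q → i ≠ j := by
    rintro i j hi hj rfl
    rw [hJ.Tq] at hj
    exact hj hi
  have ne_ea : e ≠ a := by rintro rfl; exact eM aM
  have ne_eb : e ≠ b := by rintro rfl; exact eM bM
  have ne_fc : f ≠ c := by rintro rfl; exact fM cM
  have ne_fd : f ≠ d := by rintro rfl; exact fM dM
  have TV : T V = {b, e, a} := by
    ext i
    simp only [mem_insert_iff, mem_singleton_iff]
    constructor
    · intro hi
      by_cases hM : i ∈ T M
      · rcases ub i hi hM with k | k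
        · exact Or.inr (Or.inr k)
        · exact Or.inl k
      · exact Or.inr (Or.inl (ue i hi hM))
    · rintro (rfl | rfl | rfl) <;> assumption
  have Tq : T q = {d, f, c} := by
    ext i
    simp only [mem_insert_iff, mem_singleton_iff]
    constructor
    · intro hi
      by_cases hM : i ∈ T M
      · rcases uc i hi hM with k | k
        · exact Or.inl k
        · exact Or.inr (Or.inr k)
      · exact Or.inr (Or.inl (uf i hi hM))
    · rintro (rfl | rfl | rfl) <;> assumption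
  -- the palette of `A`
  have hiV : T (V + q - M) ∩ T V = {b, e} := by
    refine (Set.eq_of_subset_of_ncard_le ?_ ?_ (Set.toFinite _))
    · rintro i ⟨k1, k2⟩
      rw [TV] at k2
      rcases k2 with k | k | k
      · exact Or.inl k
      · exact Or.inr k
      · exact absurd k1 (by rw [mem_singleton_iff.1 k]; exact aA)
    · rw [Set.ncard_pair ne_eb.symm, Set.inter_comm, N.card_i hw.1]
  have hbA : b ∈ T (V + q - M) := by
    have : b ∈ T (V + q - M) ∩ T V := by rw [hiV]; exact Or.inl rfl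
    exact this.1
  have hiq : T (V + q - M) ∩ T q = {d, f} := by
    refine (Set.eq_of_subset_of_ncard_le ?_ ?_ (Set.toFinite _)).symm
    · rintro i (rfl | k)
      · exact ⟨dA, dq⟩
      · rw [mem_singleton_iff] at k
        subst k
        exact ⟨fA, fq⟩
    · rw [Set.ncard_pair ne_fd.symm, Set.inter_comm, N.card_i hw.2]
  have hdq : T (V + q - M) \ T q = {b, e} := by
    rw [← hiV]
    ext i
    simp only [Set.mem_sdiff, mem_inter_iff, hJ.Tq, mem_compl_iff, not_not]
  have hA : DPt T (V + q - M) d f b e := hw.2.dpt h hiq hdq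
  have nd : [d, f, b, e, c, a].Nodup := by
    simp only [List.nodup_cons, List.mem_cons, List.not_mem_nil, or_false, not_or,
      List.nodup_nil, and_true, not_false_eq_true]
    exact ⟨⟨ne_fd.symm, (hVq bV dq).symm, (hVq eV dq).symm, cn.symm, (hVq aV dq).symm⟩,
      ⟨(hVq bV fq).symm, (hVq eV fq).symm, ne_fc, (hVq aV fq).symm⟩,
      ⟨ne_eb.symm, hVq bV cq, bn⟩, ⟨hVq eV cq, ne_ea⟩, (hVq aV cq).symm⟩
  -- the pairs of `y`
  have hTy := N.J_T hJ.jy
  have hTM : T M = {a, b, c, d} := by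
    ext i
    simp only [mem_insert_iff, mem_singleton_iff]
    constructor
    · intro hi
      by_cases hV : i ∈ T V
      · rcases ub i hV hi with k | k
        · exact Or.inl k
        · exact Or.inr (Or.inl k)
      · have : i ∈ T q := by rw [hJ.Tq]; exact hV
        rcases uc i this hi with k | k
        · exact Or.inr (Or.inr (Or.inr k))
        · exact Or.inr (Or.inr (Or.inl k))
    · rintro (rfl | rfl | rfl | rfl) <;> assumption
  have hDy : DPt T y b d a c := by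
    obtain ⟨a1, b1, c1, d1, hD, hac⟩ := hpr
    have e1 : ({c1, d1} : Set (Fin 6)) = {b, d} := by
      have k1 : T y \ {a, c} = {c1, d1} := by
        rw [hac, hD.pal]
        ext i
        simp only [Set.mem_sdiff, mem_insert_iff, mem_singleton_iff]
        have := hD.ac; have := hD.ad; have := hD.bc; have := hD.bd
        constructor
        · rintro ⟨k1, k2⟩; tauto
        · rintro (rfl | rfl)
          · exact ⟨by tauto, by rintro (k | k) <;> [exact hD.ac k.symm; exact hD.bc k.symm]⟩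
          · exact ⟨by tauto, by rintro (k | k) <;> [exact hD.ad k.symm; exact hD.bd k.symm]⟩
      rw [← k1, hTy, hTM]
      ext i
      simp only [Set.mem_sdiff, mem_insert_iff, mem_singleton_iff]
      constructor
      · rintro ⟨k1, k2⟩; tauto
      · rintro (rfl | rfl)
        · exact ⟨by tauto, by rintro (k | k) <;> [exact bn k; exact hVq bV cq k]⟩
        · exact ⟨by tauto, by rintro (k | k) <;> [exact hVq aV dq k.symm; exact cn k.symm]⟩
    obtain ⟨p1, hp1⟩ := hD.arc1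
    obtain ⟨p2, hp2⟩ := hD.arc2
    rw [← hac] at hp1
    rw [e1] at hp2
    exact ⟨by rw [hTy, hTM]; ext i; simp only [mem_insert_iff, mem_singleton_iff]; tauto,
      bn, hVq bV cq, (hVq aV dq).symm, cn.symm, hVq bV dq, hVq aV cq, ⟨p2, hp2⟩, ⟨p1, hp1⟩⟩
  exact ⟨a, b, c, d, e, f, nd, TV, Tq, hA, hDy, aM, aA⟩

/-- **the centre over a J-arc of a centre with two J-partners is not clean** -/
theorem jarc_false (h : Irr U T) (hS : Sec4 T)
    (N : JNet T (EE T) (Jp T) (Prs T) (ore T) (inn U T)) {M y V q q' : ℂ}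
    (hJ : JArc T (EE T) (Jp T) (Prs T) (ore T) (inn U T) M y V q q')
    (hcl : ∀ m, dist m (V + q - M) = 1 → (T m).ncard ≤ 3)
    (h22 : ∀ {v v' x x'}, EE T (V + q - M) v → EE T (V + q - M) v' → EE T (V + q - M) x →
      EE T (V + q - M) x' → T v' = T v → T x = (T v)ᶜ → T x' = (T v)ᶜ → v ≠ v' → x ≠ x' →
      False) : False := by
  have hw := N.rh hJ.eV hJ.eq hJ.Tq
  have hTV : T V = (T q)ᶜ := by rw [hJ.Tq, compl_compl]
  obtain ⟨hL2, hL3⟩ := clean_L h hS N hJ hcl
  obtain ⟨s1, ⟨V', nV', eV', tV'⟩, dA⟩ := hJ.sideA N hL2 hL3 h22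
  obtain ⟨a, b, c, d, e, f, nd, TV, Tq, hA, hDy, aM, aA⟩ := jarc_colours h N hJ dA
  have hTy := N.J_T hJ.jy
  obtain ⟨⟨df, db, de, dc, da⟩, ⟨fb, fe, fc, fa⟩, ⟨be, bc, ba⟩, ⟨ec, ea⟩, ca⟩ := nd_ne nd
  have hyA : V + q - M ≠ y := by
    intro h1
    rw [h1, hTy] at aA
    exact aA aM
  have hcom : ∀ m, dist m y = 1 → dist m (V + q - M) = 1 → V + q - M + y ≠ 2 * m →
      a ∈ T m ∧ c ∈ T m := by
    intro m k1 k2 k3
    refine ub_mem h hDy k1 k2 hyA k3 (e := e) (e' := f) ?_ ?_ (hcl m k2) (h.twoPairs hDy)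
      (h.twoPairs hA.swap) |>.imp id id
    · simp only [List.nodup_cons, List.mem_cons, List.not_mem_nil, or_false, not_or,
        List.nodup_nil, and_true, not_false_eq_true]
      exact ⟨⟨db.symm, ba, bc, be, fb.symm⟩, ⟨da, dc, de, df⟩,
        ⟨ca.symm, ea.symm, fa.symm⟩, ⟨ec.symm, fc.symm⟩, fe.symm⟩
    · rw [hA.pal]; ext i; simp only [mem_insert_iff, mem_singleton_iff]; tauto
  have hlt := hJ.near N
  have hmid : ∀ m, dist m (V + q - M) = 1 → V + q - M + y ≠ 2 * m := by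
    intro m hm h0
    have : dist (V + q - M) y = 2 := by
      rw [dist_eq_norm, show V + q - M - y = 2 * (V + q - M - m) by linear_combination -h0,
        norm_mul, ← dist_eq_norm, dist_comm, hm]
      norm_num
    linarith
  obtain ⟨t, u, t0, t1, u0, u1, kV, kq⟩ := hJ.pos
  have hyM : ‖y - M‖ = 1 := by rw [← dist_eq_norm]; exact N.J_dist hJ.jy
  have ho := N.ori hJ.eV
  have ho' : -(ore T M V) = 1 ∨ -(ore T M V) = -1 := by
    rcases ho with k | k <;> rw [k]
    · right; rfl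
    · left; norm_num
  have dVy : dist V y < 1 := by
    have k1 : dist V y ≤ 1 := by
      rw [dist_eq_norm, show V - y = (y - M) *
        (Complex.exp (((ore T M V * t : ℝ) : ℂ) * Complex.I) - 1) by linear_combination kV,
        norm_mul, hyM, one_mul]
      exact norm_exp_sub_one_le t0 t1 ho
    rcases k1.lt_or_eq with k | k
    · exact k
    · exfalso
      have := (hcom V k (N.dist_E hw.1) (hmid V (N.dist_E hw.1))).2
      rw [TV] at this
      rcases this with k' | k' | k'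
      exacts [bc k'.symm, ec k'.symm, ca k']
  have dqy : dist q y < 1 := by
    have k1 : dist q y ≤ 1 := by
      rw [dist_eq_norm, show q - y = (y - M) *
        (Complex.exp (((-(ore T M V) * u : ℝ) : ℂ) * Complex.I) - 1) by
          rw [neg_mul]; linear_combination kq,
        norm_mul, hyM, one_mul]
      exact norm_exp_sub_one_le u0 u1 ho'
    rcases k1.lt_or_eq with k | k
    · exact k
    · exfalso
      have := (hcom q k (N.dist_E hw.2) (hmid q (N.dist_E hw.2))).1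
      rw [Tq] at this
      rcases this with k' | k' | k'
      exacts [da k'.symm, fa k'.symm, ca k'.symm]
  exact geo946 h hA nd hcl (N.dist_E hw.2) Tq (N.dist_E hw.1) TV
    (by rw [add_comm]; exact N.anti hw.1 hw.2 hJ.Tq) (N.dist_E eV') (tV'.trans TV) nV'.symm
    (fun v' k1 k2 => s1 v' (auto471 h hS hw.2 hw.1 hTV k1 (k2.trans Tq.symm)) (k2.trans Tq.symm))
    hyA (by linarith) dqy dVy hcom

end Vale.Agent.P032.H946
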